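import Mathlib

/-!
# Semi-discrete optimal transport: Laguerre cells and balanced weights
-/

set_option autoImplicit false

open MeasureTheory Set Filter Topology
open scoped ENNReal RealInnerProductSpace

namespace Crest.Agent.OT

abbrev E (d : ℕ) : Type := EuclideanSpace ℝ (Fin d)

variable {d : ℕ} {J : Type*} [Fintype J] [Nonempty J]

/-- The convex potential `max_j (⟪x, y j⟫ - ψ j)`. -/
noncomputable def pot (y : J → E d) (ψ : J → ℝ) (x : E d) : ℝ :=
  Finset.univ.sup' Finset.univ_nonempty fun j => ⟪x, y j⟫ - ψ j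

/-- The (closed) Laguerre cell. -/
def cell (y : J → E d) (ψ : J → ℝ) (j : J) : Set (E d) :=
  {x | ∀ k, ⟪x, y k⟫ - ψ k ≤ ⟪x, y j⟫ - ψ j}

theorem le_pot (y : J → E d) (ψ : J → ℝ) (x : E d) (j : J) : ⟪x, y j⟫ - ψ j ≤ pot y ψ x :=
  Finset.le_sup' (fun j => ⟪x, y j⟫ - ψ j) (Finset.mem_univ j)

theorem pot_le {y : J → E d} {ψ : J → ℝ} {x : E d} {c : ℝ} (h : ∀ j, ⟪x, y j⟫ - ψ j ≤ c) :
    pot y ψ x ≤ c :=
  Finset.sup'_le _ _ fun j _ => h j

theorem exists_mem_cell (y : J → E d) (ψ : J → ℝ) (x : E d) : ∃ j, x ∈ cell y ψ j := by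
  obtain ⟨j, -, hj⟩ := Finset.exists_max_image Finset.univ (fun j => ⟪x, y j⟫ - ψ j)
    Finset.univ_nonempty
  exact ⟨j, fun k => hj k (Finset.mem_univ k)⟩

theorem pot_eq {y : J → E d} {ψ : J → ℝ} {x : E d} {j : J} (h : x ∈ cell y ψ j) :
    pot y ψ x = ⟪x, y j⟫ - ψ j :=
  le_antisymm (pot_le h) (le_pot y ψ x j)

theorem intOn {K : Set (E d)} (hK : IsCompact K) {F : E d → ℝ} (hF : Continuous F) :
    IntegrableOn F K := hF.continuousOn.integrableOn_compact hK

@[fun_prop]
theorem continuous_pot (y : J → E d) (ψ : J → ℝ) : Continuous (pot y ψ) := by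
  unfold pot
  exact Continuous.finset_sup'_apply _ fun j _ => by fun_prop

omit [Fintype J] [Nonempty J] in
theorem isClosed_cell (y : J → E d) (ψ : J → ℝ) (j : J) : IsClosed (cell y ψ j) := by
  have : cell y ψ j = ⋂ k, {x | ⟪x, y k⟫ - ψ k ≤ ⟪x, y j⟫ - ψ j} := by
    ext x; simp [cell]
  rw [this]
  exact isClosed_iInter fun k => isClosed_le (by fun_prop) (by fun_prop)

omit [Fintype J] [Nonempty J] in
theorem mid_mem_cell {y : J → E d} {ψ ψ' : J → ℝ} {j : J} {x x' : E d} (hx : x ∈ cell y ψ j)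
    (hx' : x' ∈ cell y ψ' j) :
    (1 / 2 : ℝ) • x + (1 / 2 : ℝ) • x' ∈ cell y (fun k => (ψ k + ψ' k) / 2) j := by
  intro k
  have h1 := hx k
  have h2 := hx' k
  simp only [inner_add_left, inner_smul_left, conj_trivial]
  linarith

theorem pot_sub_le {y : J → E d} {ψ ψ' : J → ℝ} {c : ℝ} (h : ∀ j, ψ' j - ψ j ≤ c) (x : E d) :
    pot y ψ x - pot y ψ' x ≤ c := by
  obtain ⟨j, hj⟩ := exists_mem_cell y ψ x
  have := le_pot y ψ' x j
  rw [pot_eq hj]
  linarith [h j]

theorem abs_pot_sub_le {y : J → E d} {ψ ψ' : J → ℝ} {c : ℝ} (h : ∀ j, |ψ j - ψ' j| ≤ c)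
    (x : E d) : |pot y ψ x - pot y ψ' x| ≤ c := by
  rw [abs_le]
  constructor
  · have := pot_sub_le (y := y) (ψ := ψ') (ψ' := ψ) (c := c) (fun j => (abs_le.1 (h j)).2) x
    linarith
  · exact pot_sub_le (fun j => by linarith [(abs_le.1 (h j)).1]) x

theorem pot_add_const (y : J → E d) (ψ : J → ℝ) (c : ℝ) (x : E d) :
    pot y (fun j => ψ j + c) x = pot y ψ x - c := by
  have h1 := pot_sub_le (y := y) (ψ := fun j => ψ j + c) (ψ' := ψ) (c := -c) (fun j => by simp) x
  have h2 := pot_sub_le (y := y) (ψ' := fun j => ψ j + c) (ψ := ψ) (c := c) (fun j => by simp) x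
  linarith

omit [Fintype J] [Nonempty J] in
theorem cell_add_const (y : J → E d) (ψ : J → ℝ) (c : ℝ) (j : J) :
    cell y (fun j => ψ j + c) j = cell y ψ j := by
  ext x
  simp only [cell, mem_ofPred_eq]
  exact forall_congr' fun k => by constructor <;> intro h <;> linarith

/-- Subgradient inequality. -/
theorem pot_subgrad {y : J → E d} {ψ : J → ℝ} {x : E d} {j : J} (h : x ∈ cell y ψ j) (x' : E d) :
    pot y ψ x + ⟪x' - x, y j⟫ ≤ pot y ψ x' := by
  have := le_pot y ψ x' j
  rw [pot_eq h, inner_sub_left]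
  linarith

omit [Fintype J] [Nonempty J] in
theorem volume_cell_inter {y : J → E d} (hy : Function.Injective y) (ψ : J → ℝ) {j k : J}
    (hjk : j ≠ k) : volume (cell y ψ j ∩ cell y ψ k) = 0 := by
  have hne : y j - y k ≠ 0 := sub_ne_zero.2 fun h => hjk (hy h)
  let s : AffineSubspace ℝ (E d) :=
    { carrier := {x | ⟪x, y j - y k⟫ = ψ j - ψ k}
      smul_vsub_vadd_mem' := by
        intro c p₁ p₂ p₃ h₁ h₂ h₃
        simp only [mem_ofPred_eq, vsub_eq_sub, vadd_eq_add, inner_add_left, inner_smul_left,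
          inner_sub_left, conj_trivial] at *
        rw [h₁, h₂, h₃]; ring }
  have hs : s ≠ ⊤ := by
    intro h
    have h0 : (0 : E d) ∈ s := h ▸ AffineSubspace.mem_top ℝ _ _
    have h1 : (y j - y k) ∈ s := h ▸ AffineSubspace.mem_top ℝ _ _
    have h0' : ⟪(0 : E d), y j - y k⟫ = ψ j - ψ k := h0
    have h1' : ⟪y j - y k, y j - y k⟫ = ψ j - ψ k := h1
    rw [inner_zero_left] at h0'
    rw [← h0'] at h1'
    exact hne (inner_self_eq_zero.1 h1')
  refine measure_mono_null ?_ (Measure.addHaar_affineSubspace volume s hs)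
  rintro x ⟨h1, h2⟩
  have a := h1 k
  have b := h2 j
  show ⟪x, y j - y k⟫ = ψ j - ψ k
  rw [inner_sub_right]
  linarith

theorem integral_eq_sum_cells {y : J → E d} (hy : Function.Injective y) (ψ : J → ℝ)
    {K : Set (E d)} (hK : MeasurableSet K) {F : E d → ℝ} (hF : IntegrableOn F K) :
    ∫ x in K, F x = ∑ j, ∫ x in K ∩ cell y ψ j, F x := by
  have hU : K = ⋃ j, K ∩ cell y ψ j := by
    ext x
    simp only [mem_iUnion, mem_inter_iff]
    exact ⟨fun hx => (exists_mem_cell y ψ x).imp fun j hj => ⟨hx, hj⟩, fun ⟨_, h, _⟩ => h⟩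
  have h := integral_iUnion_ae (μ := volume) (f := F) (s := fun j => K ∩ cell y ψ j)
    (fun j => (hK.inter (isClosed_cell y ψ j).measurableSet).nullMeasurableSet)
    (fun j k hjk => measure_mono_null (inter_subset_inter inter_subset_right inter_subset_right)
      (volume_cell_inter hy ψ hjk))
    (hU ▸ hF)
  rw [← hU, tsum_fintype] at h
  exact h

omit [Fintype J] [Nonempty J] in
theorem isCompact_inter_cell {K : Set (E d)} (hK : IsCompact K) (y : J → E d) (ψ : J → ℝ) (j : J) :
    IsCompact (K ∩ cell y ψ j) := hK.inter_right (isClosed_cell y ψ j)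

/-- `ψ` is balanced: the weighted mass of each cell is the prescribed one. -/
def Balanced (K : Set (E d)) (w : E d → ℝ) (m : J → ℝ) (y : J → E d) (ψ : J → ℝ) : Prop :=
  ∀ j, ∫ x in K ∩ cell y ψ j, w x = m j

/-- The Kantorovich functional. -/
noncomputable def kf (K : Set (E d)) (w : E d → ℝ) (m : J → ℝ) (y : J → E d) (ψ : J → ℝ) : ℝ :=
  (∫ x in K, pot y ψ x * w x) + ∑ j, m j * ψ j

/-- First moments of the cells. -/
noncomputable def mom (K : Set (E d)) (w : E d → ℝ) (y : J → E d) (ψ : J → ℝ) (j : J) (v : E d) :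
    ℝ := ∫ x in K ∩ cell y ψ j, ⟪x, v⟫ * w x

theorem kf_sub_mom {K : Set (E d)} (hK : IsCompact K) {w : E d → ℝ} (hw : Continuous w)
    {m : J → ℝ} {y : J → E d} (hy : Function.Injective y) {ψ : J → ℝ}
    (hb : Balanced K w m y ψ) (y' : J → E d) (ψ' : J → ℝ) :
    kf K w m y' ψ' - ∑ j, mom K w y ψ j (y' j) =
      ∑ j, ∫ x in K ∩ cell y ψ j, (pot y' ψ' x - (⟪x, y' j⟫ - ψ' j)) * w x := by
  have hc := continuous_pot y' ψ'
  unfold kf mom
  rw [integral_eq_sum_cells hy ψ hK.measurableSet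
    (F := fun x => pot y' ψ' x * w x) (intOn hK (by fun_prop)), ← Finset.sum_add_distrib,
    ← Finset.sum_sub_distrib]
  refine Finset.sum_congr rfl fun j _ => ?_
  have hKj := isCompact_inter_cell hK y ψ j
  have i1 : IntegrableOn (fun x => pot y' ψ' x * w x) (K ∩ cell y ψ j) :=
    (hc.mul hw).continuousOn.integrableOn_compact hKj
  have i2 : IntegrableOn (fun x => ⟪x, y' j⟫ * w x) (K ∩ cell y ψ j) :=
    (show Continuous (fun x => ⟪x, y' j⟫ * w x) by fun_prop).continuousOn.integrableOn_compact hKj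
  have i3 : IntegrableOn (fun x => ψ' j * w x) (K ∩ cell y ψ j) :=
    (show Continuous (fun x => ψ' j * w x) by fun_prop).continuousOn.integrableOn_compact hKj
  rw [← hb j, mul_comm, ← integral_const_mul, ← integral_add i1 i3,
    ← integral_sub (intOn hKj (by fun_prop)) i2]
  congr 1
  ext x
  ring

/-- Weak duality. -/
theorem mom_le_kf {K : Set (E d)} (hK : IsCompact K) {w : E d → ℝ} (hw : Continuous w)
    (hw0 : ∀ x ∈ K, 0 ≤ w x) {m : J → ℝ} {y : J → E d} (hy : Function.Injective y) {ψ : J → ℝ}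
    (hb : Balanced K w m y ψ) (y' : J → E d) (ψ' : J → ℝ) :
    ∑ j, mom K w y ψ j (y' j) ≤ kf K w m y' ψ' := by
  rw [← sub_nonneg, kf_sub_mom hK hw hy hb]
  refine Finset.sum_nonneg fun j _ => setIntegral_nonneg
    (isCompact_inter_cell hK y ψ j).measurableSet fun x hx => ?_
  exact mul_nonneg (sub_nonneg.2 (le_pot _ _ _ _)) (hw0 x hx.1)

theorem kf_eq_mom {K : Set (E d)} (hK : IsCompact K) {w : E d → ℝ} (hw : Continuous w)
    {m : J → ℝ} {y : J → E d} (hy : Function.Injective y) {ψ : J → ℝ}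
    (hb : Balanced K w m y ψ) : kf K w m y ψ = ∑ j, mom K w y ψ j (y j) := by
  rw [← sub_eq_zero, kf_sub_mom hK hw hy hb]
  refine Finset.sum_eq_zero fun j _ => ?_
  rw [setIntegral_congr_fun (isCompact_inter_cell hK y ψ j).measurableSet
    (g := fun _ => 0) fun x hx => by simp [pot_eq hx.2]]
  simp

theorem kf_min {K : Set (E d)} (hK : IsCompact K) {w : E d → ℝ} (hw : Continuous w)
    (hw0 : ∀ x ∈ K, 0 ≤ w x) {m : J → ℝ} {y : J → E d} (hy : Function.Injective y) {ψ : J → ℝ}
    (hb : Balanced K w m y ψ) (ψ' : J → ℝ) : kf K w m y ψ ≤ kf K w m y ψ' := by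
  rw [kf_eq_mom hK hw hy hb]
  exact mom_le_kf hK hw hw0 hy hb y ψ'

theorem abs_integral_pot_sub_le {K : Set (E d)} (hK : IsCompact K) {w : E d → ℝ}
    (hw : Continuous w) (y : J → E d) {ψ ψ' : J → ℝ} {c : ℝ} (h : ∀ j, |ψ j - ψ' j| ≤ c) :
    |(∫ x in K, pot y ψ x * w x) - ∫ x in K, pot y ψ' x * w x| ≤ c * ∫ x in K, |w x| := by
  rw [← integral_sub (intOn hK (by fun_prop)) (intOn hK (by fun_prop)), ← integral_const_mul]
  refine (abs_integral_le_integral_abs).trans ?_
  apply setIntegral_mono_on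
  · exact ((((continuous_pot y ψ).mul hw).sub
      ((continuous_pot y ψ').mul hw)).abs).continuousOn.integrableOn_compact hK
  · exact (show Continuous fun x => c * |w x| by fun_prop).continuousOn.integrableOn_compact hK
  · exact hK.measurableSet
  · intro x _
    rw [← sub_mul, abs_mul]
    exact mul_le_mul_of_nonneg_right (abs_pot_sub_le h x) (abs_nonneg _)

theorem continuous_integral_pot {K : Set (E d)} (hK : IsCompact K) {w : E d → ℝ}
    (hw : Continuous w) (y : J → E d) :
    Continuous fun ψ : J → ℝ => ∫ x in K, pot y ψ x * w x := by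
  have h0 : 0 ≤ ∫ x in K, |w x| := integral_nonneg fun x => abs_nonneg _
  refine (LipschitzWith.of_dist_le_mul (K := ⟨_, h0⟩) fun ψ ψ' => ?_).continuous
  rw [Real.dist_eq, mul_comm]
  exact abs_integral_pot_sub_le hK hw y fun j => by
    rw [← Real.dist_eq]; exact dist_le_pi_dist ψ ψ' j

theorem continuous_kf {K : Set (E d)} (hK : IsCompact K) {w : E d → ℝ}
    (hw : Continuous w) (m : J → ℝ) (y : J → E d) : Continuous (kf K w m y) := by
  unfold kf
  exact (continuous_integral_pot hK hw y).add (by fun_prop)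

theorem kf_add_const {K : Set (E d)} (hK : IsCompact K) {w : E d → ℝ} (hw : Continuous w)
    {m : J → ℝ} (hm : ∑ j, m j = ∫ x in K, w x) (y : J → E d) (ψ : J → ℝ) (c : ℝ) :
    kf K w m y (fun j => ψ j + c) = kf K w m y ψ := by
  unfold kf
  simp only [pot_add_const, sub_mul, mul_add, Finset.sum_add_distrib]
  rw [integral_sub (intOn hK (by fun_prop)) (intOn hK (by fun_prop)),
    integral_const_mul, ← Finset.sum_mul, hm]
  ring

theorem exists_kf_min {K : Set (E d)} (hK : IsCompact K) {w : E d → ℝ} (hw : Continuous w)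
    (hw0 : ∀ x ∈ K, 0 ≤ w x) {m : J → ℝ} (hm0 : ∀ j, 0 < m j) (hm : ∑ j, m j = ∫ x in K, w x)
    (y : J → E d) : ∃ ψ, ∀ ψ', kf K w m y ψ ≤ kf K w m y ψ' := by
  -- lower bound on `∫ pot * w` when some `ψ k = 0`
  obtain ⟨B, hB⟩ : ∃ B : ℝ, ∀ (ψ : J → ℝ) (k : J), ψ k = 0 → -B ≤ ∫ x in K, pot y ψ x * w x := by
    refine ⟨∑ k, |∫ x in K, ⟪x, y k⟫ * w x|, fun ψ k hk => ?_⟩
    have h1 : ∫ x in K, ⟪x, y k⟫ * w x ≤ ∫ x in K, pot y ψ x * w x := by
      apply setIntegral_mono_on
      · exact (show Continuous fun x => ⟪x, y k⟫ * w x by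
          fun_prop).continuousOn.integrableOn_compact hK
      · exact ((continuous_pot y ψ).mul hw).continuousOn.integrableOn_compact hK
      · exact hK.measurableSet
      · intro x hx
        have := le_pot y ψ x k
        rw [hk, sub_zero] at this
        exact mul_le_mul_of_nonneg_right this (hw0 x hx)
    have h2 : |∫ x in K, ⟪x, y k⟫ * w x| ≤ ∑ k, |∫ x in K, ⟪x, y k⟫ * w x| :=
      Finset.single_le_sum (f := fun k => |∫ x in K, ⟪x, y k⟫ * w x|)
        (fun i _ => abs_nonneg _) (Finset.mem_univ k)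
    linarith [neg_abs_le (∫ x in K, ⟪x, y k⟫ * w x)]
  obtain ⟨j₀, -, hj₀⟩ := Finset.exists_min_image Finset.univ m Finset.univ_nonempty
  set D := (|kf K w m y 0| + |B|) / m j₀ with hD
  have hD0 : 0 ≤ D := div_nonneg (by positivity) (hm0 j₀).le
  obtain ⟨ψ, -, hψ⟩ := (isCompact_Icc (a := (0 : J → ℝ)) (b := fun _ => D)).exists_isMinOn
    ⟨0, le_rfl, fun _ => hD0⟩ (continuous_kf hK hw m y).continuousOn
  refine ⟨ψ, fun ψ' => ?_⟩
  obtain ⟨k, -, hk⟩ := Finset.exists_min_image Finset.univ ψ' Finset.univ_nonempty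
  rw [← kf_add_const hK hw hm y ψ' (-ψ' k)]
  set χ : J → ℝ := fun j => ψ' j + -ψ' k with hχ
  have hχ0 : ∀ j, 0 ≤ χ j := fun j => by
    have := hk j (Finset.mem_univ j); simp only [hχ]; linarith
  by_cases hle : ∀ j, χ j ≤ D
  · exact hψ (show χ ∈ Icc (0 : J → ℝ) (fun _ => D) from ⟨hχ0, hle⟩)
  · push Not at hle
    obtain ⟨j, hj⟩ := hle
    have h1 : kf K w m y ψ ≤ kf K w m y 0 :=
      hψ (show (0 : J → ℝ) ∈ Icc (0 : J → ℝ) (fun _ => D) from ⟨le_rfl, fun _ => hD0⟩)
    have h2 := hB χ k (by simp [hχ])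
    have h3 : m j * χ j ≤ ∑ i, m i * χ i :=
      Finset.single_le_sum (f := fun i => m i * χ i)
        (fun i _ => mul_nonneg (hm0 i).le (hχ0 i)) (Finset.mem_univ j)
    have h4 : m j₀ * D ≤ m j * χ j :=
      mul_le_mul (hj₀ j (Finset.mem_univ j)) hj.le hD0 (hm0 j).le
    have h5 : m j₀ * D = |kf K w m y 0| + |B| := by
      rw [hD, mul_div_cancel₀ _ (hm0 j₀).ne']
    have h6 := le_abs_self (kf K w m y 0)
    have h7 := le_abs_self B
    have : kf K w m y χ = (∫ x in K, pot y χ x * w x) + ∑ i, m i * χ i := rfl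
    linarith

theorem balanced_of_min {K : Set (E d)} (hK : IsCompact K) {w : E d → ℝ} (hw : Continuous w)
    (hw0 : ∀ x ∈ K, 0 ≤ w x) {m : J → ℝ} (hm : ∑ j, m j = ∫ x in K, w x)
    {y : J → E d} (hy : Function.Injective y) {ψ : J → ℝ}
    (hψ : ∀ ψ', kf K w m y ψ ≤ kf K w m y ψ') : Balanced K w m y ψ := by
  classical
  have key : ∀ j, m j ≤ ∫ x in K ∩ cell y ψ j, w x := by
    intro j
    let χ : ℝ → J → ℝ := fun t k => ψ k - if k = j then t else 0
    have h1 : ∀ t, 0 < t → m j ≤ ∫ x in K ∩ cell y (χ t) j, w x := by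
      intro t ht
      have h := hψ (χ t)
      unfold kf at h
      have e1 : ∑ k, m k * χ t k = ∑ k, m k * ψ k - m j * t := by
        simp only [χ, mul_sub, Finset.sum_sub_distrib, mul_ite, mul_zero, Finset.sum_ite_eq',
          Finset.mem_univ, if_true]
      have i1 : IntegrableOn (fun x => pot y (χ t) x * w x) K := intOn hK (by fun_prop)
      have i2 : IntegrableOn (fun x => pot y ψ x * w x) K := intOn hK (by fun_prop)
      have e2 : (∫ x in K, pot y (χ t) x * w x) - ∫ x in K, pot y ψ x * w x ≤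
          t * ∫ x in K ∩ cell y (χ t) j, w x := by
        rw [← integral_sub i1 i2, ← integral_const_mul,
          ← setIntegral_indicator (isClosed_cell y (χ t) j).measurableSet]
        apply setIntegral_mono_on (i1.sub i2)
        · exact ((show Continuous fun x => t * w x by
            fun_prop).continuousOn.integrableOn_compact hK).indicator
              (isClosed_cell y (χ t) j).measurableSet
        · exact hK.measurableSet
        · intro x hx
          by_cases hxj : x ∈ cell y (χ t) j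
          · rw [indicator_of_mem hxj]
            simp only [Pi.sub_apply]
            rw [← sub_mul]
            refine mul_le_mul_of_nonneg_right (pot_sub_le (fun k => ?_) x) (hw0 x hx)
            simp only [χ]
            split_ifs <;> linarith
          · rw [indicator_of_notMem hxj]
            simp only [Pi.sub_apply]
            rw [← sub_mul]
            obtain ⟨k, hk⟩ := exists_mem_cell y (χ t) x
            have hkj : k ≠ j := fun h => hxj (h ▸ hk)
            have := le_pot y ψ x k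
            refine mul_nonpos_of_nonpos_of_nonneg ?_ (hw0 x hx)
            rw [pot_eq hk]
            simp only [χ, hkj, if_false]
            linarith
      have : m j * t ≤ t * ∫ x in K ∩ cell y (χ t) j, w x := by linarith
      rw [mul_comm] at this
      exact le_of_mul_le_mul_left this ht
    have h2 : Tendsto (fun n : ℕ => ∫ x in K ∩ cell y (χ (1 / ((n : ℝ) + 1))) j, w x) atTop
        (𝓝 (∫ x in ⋂ n : ℕ, K ∩ cell y (χ (1 / ((n : ℝ) + 1))) j, w x)) := by
      apply tendsto_setIntegral_of_antitone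
      · exact fun n => (isCompact_inter_cell hK y _ j).measurableSet
      · intro a b hab x hx
        refine ⟨hx.1, fun k => ?_⟩
        have := hx.2 k
        have hab' : 1 / ((b : ℝ) + 1) ≤ 1 / ((a : ℝ) + 1) := Nat.one_div_le_one_div hab
        simp only [χ, if_true] at this ⊢
        split_ifs at this ⊢ with hkj <;> linarith
      · exact ⟨0, hw.continuousOn.integrableOn_compact (isCompact_inter_cell hK y _ j)⟩
    have h3 : (⋂ n : ℕ, K ∩ cell y (χ (1 / ((n : ℝ) + 1))) j) = K ∩ cell y ψ j := by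
      ext x
      simp only [mem_iInter, mem_inter_iff]
      constructor
      · intro h
        refine ⟨(h 0).1, fun k => ?_⟩
        by_cases hkj : k = j
        · rw [hkj]
        apply le_of_forall_pos_le_add
        intro ε hε
        obtain ⟨n, hn⟩ := exists_nat_one_div_lt hε
        have := (h n).2 k
        simp only [χ, hkj, if_true, if_false] at this
        linarith
      · intro h n
        refine ⟨h.1, fun k => ?_⟩
        have := h.2 k
        have h0 : 0 < 1 / ((n : ℝ) + 1) := Nat.one_div_pos_of_nat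
        simp only [χ, if_true]
        split_ifs with hkj
        · rw [hkj]
        · linarith
    rw [h3] at h2
    exact ge_of_tendsto' h2 fun n => h1 _ Nat.one_div_pos_of_nat
  have hsum : ∑ j, m j = ∑ j, ∫ x in K ∩ cell y ψ j, w x := by
    rw [hm, integral_eq_sum_cells hy ψ hK.measurableSet (hw.continuousOn.integrableOn_compact hK)]
  intro j
  exact ((Finset.sum_eq_sum_iff_of_le fun i _ => key i).1 hsum j (Finset.mem_univ j)).symm

theorem exists_balanced {K : Set (E d)} (hK : IsCompact K) {w : E d → ℝ} (hw : Continuous w)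
    (hw0 : ∀ x ∈ K, 0 ≤ w x) {m : J → ℝ} (hm0 : ∀ j, 0 < m j) (hm : ∑ j, m j = ∫ x in K, w x)
    {y : J → E d} (hy : Function.Injective y) : ∃ ψ, Balanced K w m y ψ := by
  obtain ⟨ψ, hψ⟩ := exists_kf_min hK hw hw0 hm0 hm y
  exact ⟨ψ, balanced_of_min hK hw hw0 hm hy hψ⟩

end Crest.Agent.OT
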