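import Mathlib
import Crest.Agent.OT.Cells

/-!
# Discretisation of couplings
-/

set_option autoImplicit false

open MeasureTheory Set Filter Topology
open scoped ENNReal RealInnerProductSpace NNReal

namespace Crest.Agent.OT

variable {d : ℕ}

theorem exists_measurable_selection {X : Type*} [MeasurableSpace X] {J : Type*} [Fintype J]
    [Nonempty J] (C : J → Set X) (hC : ∀ j, MeasurableSet (C j)) :
    ∃ ι : X → J, (∀ j, MeasurableSet (ι ⁻¹' {j})) ∧ ∀ x, (∃ j, x ∈ C j) → x ∈ C (ι x) := by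
  classical
  obtain ⟨j₀⟩ := ‹Nonempty J›
  let e := Fintype.equivFin J
  let ι : X → J := fun x => if h : ∃ j, x ∈ C j then
    e.symm ((Finset.univ.filter fun i => x ∈ C (e.symm i)).min' (by
      obtain ⟨j, hj⟩ := h
      exact ⟨e j, by simpa using hj⟩)) else j₀
  have h1 : ∀ x, (∃ j, x ∈ C j) → x ∈ C (ι x) := fun x h => by
    simp only [ι, dif_pos h]
    exact (Finset.mem_filter.1 (Finset.min'_mem
      (Finset.univ.filter fun i => x ∈ C (e.symm i)) _)).2
  refine ⟨ι, fun j => ?_, h1⟩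
  have : ι ⁻¹' {j} = (C j ∩ ⋂ i, ⋂ (_ : i < e j), (C (e.symm i))ᶜ) ∪
      ((⋃ k, C k)ᶜ ∩ {_x | j₀ = j}) := by
    ext x
    simp only [mem_preimage, mem_singleton_iff, mem_union, mem_inter_iff, mem_iInter,
      mem_compl_iff, mem_iUnion, mem_ofPred_eq]
    by_cases h : ∃ j, x ∈ C j
    · simp only [h, not_true_eq_false, false_and, or_false]
      constructor
      · intro hj
        refine ⟨hj ▸ h1 x h, fun i hi hx => ?_⟩
        simp only [ι, dif_pos h] at hj
        rw [← hj, Equiv.apply_symm_apply] at hi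
        exact absurd (Finset.min'_le _ i (by simpa using hx)) (not_le.2 hi)
      · rintro ⟨hj, hj'⟩
        simp only [ι, dif_pos h]
        rw [Equiv.symm_apply_eq]
        apply le_antisymm
        · exact Finset.min'_le _ _ (by simpa using hj)
        · apply Finset.le_min'
          intro i hi
          by_contra hlt
          exact hj' i (not_le.1 hlt) (Finset.mem_filter.1 hi).2
    · simp only [ι, dif_neg h, h, not_false_eq_true, true_and]
      constructor
      · intro hj; exact Or.inr hj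
      · rintro (⟨hj, -⟩ | hj)
        · exact absurd ⟨j, hj⟩ h
        · exact hj
  rw [this]
  exact ((hC j).inter (MeasurableSet.iInter fun i => MeasurableSet.iInter fun _ =>
    (hC _).compl)).union ((MeasurableSet.iUnion hC).compl.inter (MeasurableSet.const _))

theorem exists_perturb (hd : 2 ≤ d) {n : ℕ} (y z : Fin n → E d) {η : ℝ} (hη : 0 < η) :
    ∃ v : E d, ‖v‖ < η ∧ ∀ s : ℝ, Function.Injective fun j : Fin n =>
      (y j + (j : ℝ) • v) + s • ((z j + (j : ℝ) • v) - (y j + (j : ℝ) • v)) := by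
  let A : Fin n → Fin n → AffineSubspace ℝ (E d) := fun j k =>
    AffineSubspace.mk' (((k : ℝ) - j)⁻¹ • (y j - y k)) (ℝ ∙ ((z j - y j) - (z k - y k)))
  have hA : ∀ j k, A j k ≠ ⊤ := fun j k h => by
    have h1 := congrArg AffineSubspace.direction h
    rw [AffineSubspace.direction_mk', AffineSubspace.direction_top] at h1
    have h2 := finrank_span_le_card (R := ℝ) ({(z j - y j) - (z k - y k)} : Set (E d))
    rw [h1, finrank_top, finrank_euclideanSpace_fin] at h2
    simp at h2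
    omega
  have h0 : ∀ᵐ v : E d, ∀ j k, v ∉ A j k := by
    rw [ae_all_iff]; intro j
    rw [ae_all_iff]; intro k
    exact measure_eq_zero_iff_ae_notMem.1 (Measure.addHaar_affineSubspace volume _ (hA j k))
  obtain ⟨v, hv, hv'⟩ : ∃ v ∈ Metric.ball (0 : E d) η, ∀ j k, v ∉ A j k := by
    by_contra h
    push Not at h
    have : volume (Metric.ball (0 : E d) η) = 0 := by
      rw [measure_eq_zero_iff_ae_notMem]
      filter_upwards [h0] with v hv hv'
      obtain ⟨j, k, hjk⟩ := h v hv'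
      exact hv j k hjk
    exact (Metric.measure_ball_pos volume _ hη).ne' this
  refine ⟨v, mem_ball_zero_iff.1 hv, fun s j k hjk => ?_⟩
  by_contra hne
  apply hv' j k
  have hkj : (k : ℝ) - j ≠ 0 := by
    rw [sub_ne_zero]
    intro h
    exact hne (Fin.ext (by exact_mod_cast h.symm))
  simp only [A, AffineSubspace.mem_mk', vsub_eq_sub, Submodule.mem_span_singleton]
  refine ⟨((k : ℝ) - j)⁻¹ * s, ?_⟩
  have h1 : ((k : ℝ) - j) • v = (y j - y k) + s • ((z j - y j) - (z k - y k)) := by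
    simp only at hjk
    rw [← sub_eq_zero] at hjk ⊢
    rw [← neg_eq_zero, ← hjk]
    module
  rw [eq_sub_iff_add_eq, mul_smul, ← smul_add, add_comm, ← h1, smul_smul, inv_mul_cancel₀ hkj,
    one_smul]

theorem exists_discretization (hd : 2 ≤ d) (π : Measure (E d × E d)) [IsProbabilityMeasure π]
    {L : ℝ} (hL : ∀ᵐ p ∂π, ‖p.1‖ ≤ L ∧ ‖p.2‖ ≤ L) {η : ℝ} (hη : 0 < η) :
    ∃ (n : ℕ) (_ : Nonempty (Fin n)) (y z : Fin n → E d) (idx : E d × E d → Fin n),
      Measurable idx ∧ (∀ᵐ p ∂π, ‖p.1 - y (idx p)‖ ≤ η ∧ ‖p.2 - z (idx p)‖ ≤ η) ∧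
      (∀ j, π (idx ⁻¹' {j}) ≠ 0) ∧
      ∀ s : ℝ, Function.Injective fun j => y j + s • (z j - y j) := by
  classical
  obtain ⟨t, -, htf, ht⟩ := ((isCompact_closedBall (0 : E d) L).prod
    (isCompact_closedBall (0 : E d) L)).finite_cover_balls (half_pos hη)
  have hcov : ∀ᵐ p ∂π, ∃ c : t, p ∈ Metric.ball (c : E d × E d) (η / 2) := by
    filter_upwards [hL] with p hp
    have := ht (show p ∈ Metric.closedBall (0 : E d) L ×ˢ Metric.closedBall (0 : E d) L from
      ⟨mem_closedBall_zero_iff.2 hp.1, mem_closedBall_zero_iff.2 hp.2⟩)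
    simp only [mem_iUnion] at this
    obtain ⟨c, hc, h⟩ := this
    exact ⟨⟨c, hc⟩, h⟩
  have : Fintype t := htf.fintype
  have : Nonempty t := by
    obtain ⟨p, c, -⟩ := hcov.exists
    exact ⟨c⟩
  obtain ⟨ι₀, hι₀m, hι₀⟩ := exists_measurable_selection
    (fun c : t => Metric.ball (c : E d × E d) (η / 2)) fun c => Metric.isOpen_ball.measurableSet
  let J := {c : t // π (ι₀ ⁻¹' {c}) ≠ 0}
  have hJ : ∀ᵐ p ∂π, π (ι₀ ⁻¹' {ι₀ p}) ≠ 0 := by
    have : ∀ᵐ p ∂π, ∀ c, π (ι₀ ⁻¹' {c}) = 0 → p ∉ ι₀ ⁻¹' {c} := by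
      rw [ae_all_iff]
      intro c
      by_cases h : π (ι₀ ⁻¹' {c}) = 0
      · filter_upwards [measure_eq_zero_iff_ae_notMem.1 h] with p hp _ using hp
      · exact Eventually.of_forall fun p h' => absurd h' h
    filter_upwards [this] with p hp h
    exact hp _ h rfl
  obtain ⟨n, ⟨e⟩⟩ : ∃ n : ℕ, Nonempty (J ≃ Fin n) := ⟨_, ⟨Fintype.equivFin J⟩⟩
  have hne : Nonempty (Fin n) := by
    obtain ⟨p, hp⟩ := hJ.exists
    exact ⟨e ⟨ι₀ p, hp⟩⟩
  obtain ⟨idx, hidxm, hidx⟩ := exists_measurable_selection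
    (fun j : Fin n => ι₀ ⁻¹' {(e.symm j).1}) fun j => hι₀m _
  obtain ⟨v, hv, hinj⟩ := exists_perturb hd (fun j : Fin n => ((e.symm j).1 : E d × E d).1)
    (fun j => ((e.symm j).1 : E d × E d).2) (show 0 < η / 2 / (n + 1) by positivity)
  have hjv : ∀ j : Fin n, ‖(j : ℝ) • v‖ ≤ η / 2 := fun j => by
    rw [norm_smul, Real.norm_natCast]
    rw [lt_div_iff₀ (by positivity)] at hv
    have : ((j : ℕ) : ℝ) ≤ n + 1 := by exact_mod_cast (by omega : (j : ℕ) ≤ n + 1)
    nlinarith [norm_nonneg v]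
  refine ⟨n, hne, _, _, idx, measurable_to_countable' hidxm, ?_, fun j => ?_, hinj⟩
  · filter_upwards [hcov, hJ] with p hp hp'
    have h1 := hidx p ⟨e ⟨ι₀ p, hp'⟩, by simp⟩
    have h2 := hι₀ p hp
    simp only [mem_preimage, mem_singleton_iff] at h1
    rw [h1, Metric.mem_ball, Prod.dist_eq, max_lt_iff, dist_eq_norm, dist_eq_norm] at h2
    constructor
    · rw [← sub_sub]
      linarith [norm_sub_le (p.1 - ((e.symm (idx p)).1 : E d × E d).1) (((idx p : ℕ) : ℝ) • v),
        hjv (idx p)]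
    · rw [← sub_sub]
      linarith [norm_sub_le (p.2 - ((e.symm (idx p)).1 : E d × E d).2) (((idx p : ℕ) : ℝ) • v),
        hjv (idx p)]
  · refine fun h => (e.symm j).2 (measure_mono_null (fun p hp => ?_) h)
    have h1 := hidx p ⟨j, hp⟩
    simp only [mem_preimage, mem_singleton_iff] at h1 hp ⊢
    exact e.symm.injective (Subtype.ext (h1.symm.trans hp))

end Crest.Agent.OT
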