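import Mathlib
import Crest.Agent.PL.Basic
import Crest.Agent.OT.Cells

/-!
# Prékopa–Leindler on Laguerre cells: stability of the cell moments under change of density
-/

set_option autoImplicit false

open MeasureTheory Set Filter Topology
open scoped ENNReal RealInnerProductSpace

namespace Crest.Agent.OT

variable {d : ℕ} {J : Type*} [Fintype J] [Nonempty J]

/-- Gaussian weight. -/
noncomputable def gw (ε : ℝ) (x : E d) : ℝ := Real.exp (-(ε * ‖x‖ ^ 2 / 2))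

@[fun_prop]
theorem continuous_gw (ε : ℝ) : Continuous (gw (d := d) ε) := by
  unfold gw; fun_prop

theorem gw_pos (ε : ℝ) (x : E d) : 0 < gw ε x := Real.exp_pos _

theorem norm_mid_sq (x x' : E d) :
    ‖(1 / 2 : ℝ) • x + (1 / 2 : ℝ) • x'‖ ^ 2 = ‖x‖ ^ 2 / 2 + ‖x'‖ ^ 2 / 2 - ‖x - x'‖ ^ 2 / 4 := by
  rw [← smul_add, norm_smul, mul_pow, norm_add_sq_real, norm_sub_sq_real]
  simp only [Real.norm_eq_abs, sq_abs]
  ring

theorem single_cell {A B M : Set (E d)} (hA : IsCompact A) (hB : IsCompact B) (hM : IsCompact M)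
    (hmid : ∀ x ∈ A, ∀ x' ∈ B, (1 / 2 : ℝ) • x + (1 / 2 : ℝ) • x' ∈ M) {ε : ℝ} (hε : 0 ≤ ε)
    (hα : 0 < ∫ x in A, gw ε x) (hβ : 0 < ∫ x in B, gw ε x) {G : E d → ℝ} (hG : Continuous G)
    {ℓ : ℝ} (hL : ∀ x ∈ A, ∀ x' ∈ B, G x - G x' ≤ ℓ * ‖x - x'‖) :
    √((∫ x in A, gw ε x) * ∫ x in B, gw ε x) * (1 + ε / 8 *
      (2 * ((∫ x in A, G x * gw ε x) / (∫ x in A, gw ε x) -
        (∫ x in B, G x * gw ε x) / (∫ x in B, gw ε x)) - ℓ ^ 2)) ≤ ∫ x in M, gw ε x := by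
  set α := ∫ x in A, gw ε x with hαd
  set β := ∫ x in B, gw ε x with hβd
  set a := (∫ x in A, G x * gw ε x) / α with ha
  set b := (∫ x in B, G x * gw ε x) / β with hb
  set κ := ε / 8 * (2 * (a - b) - ℓ ^ 2) with hκ
  have key := PL.prekopa_leindler_sets hA hB hM
    (f := fun x => Real.exp (ε / 2 * (G x - a)) * gw ε x)
    (g := fun x => Real.exp (-(ε / 2 * (G x - b))) * gw ε x)
    (h := fun x => Real.exp (-κ) * gw ε x) (by fun_prop) (by fun_prop) (by fun_prop)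
    (fun x => (mul_pos (Real.exp_pos _) (gw_pos _ _)).le)
    (fun x => (mul_pos (Real.exp_pos _) (gw_pos _ _)).le)
    (fun x => (mul_pos (Real.exp_pos _) (gw_pos _ _)).le) (by
      intro x hx x' hx'
      refine ⟨hmid x hx x' hx', ?_⟩
      simp only [gw]
      rw [← Real.exp_add, ← Real.exp_add, ← Real.exp_add, ← Real.exp_add, sq (Real.exp _),
        ← Real.exp_add, norm_mid_sq]
      apply Real.exp_le_exp.2
      have h1 := hL x hx x' hx'
      have h2 : 2 * (G x - G x') - ℓ ^ 2 ≤ ‖x - x'‖ ^ 2 := by nlinarith [sq_nonneg (ℓ - ‖x - x'‖)]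
      have h3 := mul_le_mul_of_nonneg_left h2 hε
      rw [hκ]
      linarith)
  have h1 : α ≤ ∫ x in A, Real.exp (ε / 2 * (G x - a)) * gw ε x := by
    have e : α = ∫ x in A, (gw ε x + ε / 2 * (G x * gw ε x - a * gw ε x)) := by
      rw [integral_add (intOn hA (by fun_prop)) (intOn hA (by fun_prop)), integral_const_mul,
        integral_sub (intOn hA (by fun_prop)) (intOn hA (by fun_prop)), integral_const_mul,
        ← hαd, ha, div_mul_cancel₀ _ hα.ne']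
      ring
    rw [e]
    apply setIntegral_mono_on (intOn hA (by fun_prop)) (intOn hA (by fun_prop)) hA.measurableSet
    intro x _
    have := mul_le_mul_of_nonneg_right (Real.add_one_le_exp (ε / 2 * (G x - a))) (gw_pos ε x).le
    linarith
  have h2 : β ≤ ∫ x in B, Real.exp (-(ε / 2 * (G x - b))) * gw ε x := by
    have e : β = ∫ x in B, (gw ε x - ε / 2 * (G x * gw ε x - b * gw ε x)) := by
      rw [integral_sub (intOn hB (by fun_prop)) (intOn hB (by fun_prop)), integral_const_mul,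
        integral_sub (intOn hB (by fun_prop)) (intOn hB (by fun_prop)), integral_const_mul,
        ← hβd, hb, div_mul_cancel₀ _ hβ.ne']
      ring
    rw [e]
    apply setIntegral_mono_on (intOn hB (by fun_prop)) (intOn hB (by fun_prop)) hB.measurableSet
    intro x _
    have := mul_le_mul_of_nonneg_right (Real.add_one_le_exp (-(ε / 2 * (G x - b))))
      (gw_pos ε x).le
    linarith
  rw [integral_const_mul] at key
  have hM0 : 0 ≤ ∫ x in M, gw ε x := integral_nonneg fun x => (gw_pos ε x).le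
  have h3 : √(α * β) ≤ Real.exp (-κ) * ∫ x in M, gw ε x := by
    apply Real.sqrt_le_iff.2 ⟨mul_nonneg (Real.exp_pos _).le hM0, ?_⟩
    exact (mul_le_mul h1 h2 hβ.le (hα.le.trans h1)).trans key
  calc √(α * β) * (1 + κ) ≤ √(α * β) * Real.exp κ := by
        apply mul_le_mul_of_nonneg_left _ (Real.sqrt_nonneg _)
        linarith [Real.add_one_le_exp κ]
    _ ≤ (Real.exp (-κ) * ∫ x in M, gw ε x) * Real.exp κ :=
        mul_le_mul_of_nonneg_right h3 (Real.exp_pos _).le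
    _ = ∫ x in M, gw ε x := by
        rw [mul_right_comm, ← Real.exp_add]; simp

theorem sum_cells {K : Set (E d)} (hK : IsCompact K) (hKc : Convex ℝ K) {y : J → E d}
    (hy : Function.Injective y) (ψ ψ' : J → ℝ) {ε : ℝ} (hε : 0 ≤ ε)
    (hα : ∀ j, 0 < ∫ x in K ∩ cell y ψ j, gw ε x) (hβ : ∀ j, 0 < ∫ x in K ∩ cell y ψ' j, gw ε x)
    {G : J → E d → ℝ} (hG : ∀ j, Continuous (G j)) {ℓ : J → ℝ}
    (hL : ∀ j, ∀ x ∈ K, ∀ x' ∈ K, G j x - G j x' ≤ ℓ j * ‖x - x'‖) :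
    ∑ j, √((∫ x in K ∩ cell y ψ j, gw ε x) * ∫ x in K ∩ cell y ψ' j, gw ε x) * (ε / 8 *
      (2 * ((∫ x in K ∩ cell y ψ j, G j x * gw ε x) / (∫ x in K ∩ cell y ψ j, gw ε x) -
        (∫ x in K ∩ cell y ψ' j, G j x * gw ε x) / (∫ x in K ∩ cell y ψ' j, gw ε x)) - ℓ j ^ 2))
      ≤ ∑ j, (((∫ x in K ∩ cell y ψ j, gw ε x) + ∫ x in K ∩ cell y ψ' j, gw ε x) / 2 -
        √((∫ x in K ∩ cell y ψ j, gw ε x) * ∫ x in K ∩ cell y ψ' j, gw ε x)) := by
  have h := Finset.sum_le_sum fun j (_ : j ∈ Finset.univ) =>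
    single_cell (isCompact_inter_cell hK y ψ j) (isCompact_inter_cell hK y ψ' j)
      (isCompact_inter_cell hK y (fun k => (ψ k + ψ' k) / 2) j)
      (fun x hx x' hx' => ⟨hKc hx.1 hx'.1 (by norm_num) (by norm_num) (by norm_num),
        mid_mem_cell hx.2 hx'.2⟩) hε (hα j) (hβ j) (hG j) (fun x hx x' hx' => hL j x hx.1 x' hx'.1)
  rw [← integral_eq_sum_cells hy _ hK.measurableSet (intOn hK (by fun_prop))] at h
  rw [Finset.sum_sub_distrib, ← Finset.sum_div, Finset.sum_add_distrib,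
    ← integral_eq_sum_cells hy _ hK.measurableSet (intOn hK (by fun_prop)),
    ← integral_eq_sum_cells hy _ hK.measurableSet (intOn hK (by fun_prop))]
  simp only [mul_add, mul_one, Finset.sum_add_distrib] at h
  linarith

theorem hellinger_le {α β : ℝ} (hα : 0 < α) (hβ : 0 < β) :
    (α + β) / 2 - √(α * β) ≤ (α - β) ^ 2 / (2 * β) := by
  obtain ⟨a, ha, rfl⟩ : ∃ a, 0 < a ∧ α = a ^ 2 := ⟨√α, Real.sqrt_pos.2 hα, (Real.sq_sqrt hα.le).symm⟩
  obtain ⟨b, hb, rfl⟩ : ∃ a, 0 < a ∧ β = a ^ 2 := ⟨√β, Real.sqrt_pos.2 hβ, (Real.sq_sqrt hβ.le).symm⟩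
  rw [← mul_pow, Real.sqrt_sq (by positivity), le_div_iff₀ (by positivity)]
  have : (a ^ 2 - b ^ 2) ^ 2 = (a - b) ^ 2 * (a + b) ^ 2 := by ring
  rw [this]
  have h2 : b ^ 2 ≤ (a + b) ^ 2 := by nlinarith
  nlinarith [mul_le_mul_of_nonneg_left h2 (sq_nonneg (a - b))]

theorem exp_sub_exp_le {a b : ℝ} (ha : a ≤ 1 / 2) (hb : b ≤ 1 / 2) :
    |Real.exp a - Real.exp b| ≤ 2 * |a - b| := by
  have h2 : Real.exp (1 / 2) ≤ 2 := by
    have := Real.exp_one_lt_d9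
    have h : Real.exp (1 / 2) ^ 2 = Real.exp 1 := by rw [← Real.exp_nat_mul]; norm_num
    nlinarith [Real.exp_pos (1 / 2)]
  wlog h : b ≤ a generalizing a b
  · rw [abs_sub_comm, abs_sub_comm a]; exact this hb ha (le_of_not_ge h)
  rw [abs_of_nonneg (sub_nonneg.2 (Real.exp_le_exp.2 h)), abs_of_nonneg (sub_nonneg.2 h)]
  have e : Real.exp b = Real.exp a * Real.exp (b - a) := by rw [← Real.exp_add]; ring_nf
  have h3 := Real.add_one_le_exp (b - a)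
  have h4 : Real.exp a ≤ 2 := (Real.exp_le_exp.2 ha).trans h2
  rw [e]
  nlinarith [Real.exp_pos a, mul_le_mul_of_nonneg_left h3 (Real.exp_pos a).le]

/-- Inverse Gaussian weight. -/
noncomputable def uw (ε : ℝ) (x : E d) : ℝ := Real.exp (ε * ‖x‖ ^ 2 / 2)

@[fun_prop]
theorem continuous_uw (ε : ℝ) : Continuous (uw (d := d) ε) := by
  unfold uw; fun_prop

theorem uw_mul_gw (ε : ℝ) (x : E d) : uw ε x * gw ε x = 1 := by
  simp [uw, gw, ← Real.exp_add]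

theorem gw_le_one {ε : ℝ} (hε : 0 ≤ ε) (x : E d) : gw ε x ≤ 1 := by
  apply Real.exp_le_one_iff.2
  have : 0 ≤ ε * ‖x‖ ^ 2 / 2 := by positivity
  linarith

theorem uw_le_two {ε R : ℝ} (hε : 0 ≤ ε) (hεR : ε * R ^ 2 ≤ 1) {x : E d} (hx : ‖x‖ ≤ R) :
    uw ε x ≤ 2 := by
  have h1 : ε * ‖x‖ ^ 2 ≤ ε * R ^ 2 := by gcongr
  have := exp_sub_exp_le (a := ε * ‖x‖ ^ 2 / 2) (b := 0) (by linarith) (by norm_num)
  rw [Real.exp_zero, sub_zero, abs_of_nonneg (show 0 ≤ ε * ‖x‖ ^ 2 / 2 by positivity)] at this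
  have h2 := (abs_le.1 this).2
  unfold uw
  linarith

theorem half_le_gw {ε R : ℝ} (hε : 0 ≤ ε) (hεR : ε * R ^ 2 ≤ 1) {x : E d} (hx : ‖x‖ ≤ R) :
    1 / 2 ≤ gw ε x := by
  have h1 := uw_le_two hε hεR hx
  have h2 := uw_mul_gw ε x
  nlinarith [gw_pos ε x]

theorem uw_lip {ε R : ℝ} (hε : 0 ≤ ε) (hεR : ε * R ^ 2 ≤ 1) {x x' : E d} (hx : ‖x‖ ≤ R)
    (hx' : ‖x'‖ ≤ R) : |uw ε x - uw ε x'| ≤ 2 * ε * R * ‖x - x'‖ := by
  have h1 : ε * ‖x‖ ^ 2 ≤ ε * R ^ 2 := by gcongr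
  have h2 : ε * ‖x'‖ ^ 2 ≤ ε * R ^ 2 := by gcongr
  refine (exp_sub_exp_le (by linarith) (by linarith)).trans ?_
  have e : ε * ‖x‖ ^ 2 / 2 - ε * ‖x'‖ ^ 2 / 2 = ε / 2 * (‖x‖ + ‖x'‖) * (‖x‖ - ‖x'‖) := by ring
  rw [e, abs_mul, abs_of_nonneg (show 0 ≤ ε / 2 * (‖x‖ + ‖x'‖) by positivity)]
  have h3 := abs_norm_sub_norm_le x x'
  have h4 : ε / 2 * (‖x‖ + ‖x'‖) ≤ ε * R := by nlinarith
  have := mul_le_mul h4 h3 (abs_nonneg _) (le_trans (by positivity) h4)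
  linarith

end Crest.Agent.OT
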