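import Mathlib
import Crest.Agent.OT.Cells

/-!
# Optimality and uniqueness of subgradient maps; compactness lemmas
-/

set_option autoImplicit false

open MeasureTheory Set Filter Topology
open scoped ENNReal RealInnerProductSpace NNReal

namespace Crest.Agent.OT

variable {d : ℕ}

theorem gradient_eq_of_subgrad {φ : E d → ℝ} {x p : E d} (hφ : DifferentiableAt ℝ φ x)
    (h : ∀ᶠ x' in 𝓝 x, φ x + ⟪x' - x, p⟫ ≤ φ x') : gradient φ x = p := by
  have h1 : IsLocalMin (fun x' => φ x' - (InnerProductSpace.toDual ℝ (E d) p) x') x := by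
    filter_upwards [h] with x' hx'
    simp only [InnerProductSpace.toDual_apply_apply]
    rw [inner_sub_left, real_inner_comm p x', real_inner_comm p x] at hx'
    linarith
  have h2 := h1.hasFDerivAt_eq_zero
    (hφ.hasFDerivAt.sub (InnerProductSpace.toDual ℝ (E d) p).hasFDerivAt)
  rw [sub_eq_zero] at h2
  rw [gradient, h2]
  simp

theorem integrable_comp_pair {K : Set (E d)} (hK : IsCompact K) {ρ : Measure (E d)}
    [IsFiniteMeasure ρ] (hρ : ∀ᵐ x ∂ρ, x ∈ K) {T : E d → E d} (hT : Measurable T) {L : ℝ}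
    (hTL : ∀ᵐ x ∂ρ, ‖T x‖ ≤ L) {F : E d × E d → ℝ} (hF : Continuous F) :
    Integrable (fun x => F (x, T x)) ρ := by
  obtain ⟨M, hM⟩ := (hK.prod (isCompact_closedBall (0 : E d) L)).exists_bound_of_continuousOn
    hF.continuousOn
  refine Integrable.of_bound
    (hF.measurable.comp (measurable_id.prodMk hT)).aestronglyMeasurable M ?_
  filter_upwards [hρ, hTL] with x h1 h2
  exact hM _ ⟨h1, mem_closedBall_zero_iff.2 h2⟩

/-- Restricted convex conjugate. -/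
noncomputable def conj (K : Set (E d)) (φ : E d → ℝ) (y : E d) : ℝ :=
  ⨆ x : K, (⟪(x : E d), y⟫ - φ x)

theorem le_conj {K : Set (E d)} (hK : IsCompact K) {φ : E d → ℝ} (hφ : Continuous φ) {x : E d}
    (hx : x ∈ K) (y : E d) : ⟪x, y⟫ - φ x ≤ conj K φ y := by
  have hb : BddAbove (range fun x : K => ⟪(x : E d), y⟫ - φ x) := by
    have := hK.bddAbove_image (f := fun x => ⟪x, y⟫ - φ x) (by fun_prop)
    rwa [image_eq_range] at this
  exact le_ciSup hb ⟨x, hx⟩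

theorem continuous_conj {K : Set (E d)} (hK : IsCompact K) (hKn : K.Nonempty) {φ : E d → ℝ}
    (hφ : Continuous φ) : Continuous (conj K φ) := by
  obtain ⟨R, hR⟩ := hK.isBounded.exists_norm_le
  have : Nonempty K := hKn.to_subtype
  refine (LipschitzWith.of_le_add_mul' R fun y y' => ?_).continuous
  refine ciSup_le fun x => ?_
  have h1 := le_conj hK hφ x.2 y'
  have h2 : ⟪(x : E d), y - y'⟫ ≤ R * dist y y' := by
    rw [dist_eq_norm]
    exact (real_inner_le_norm _ _).trans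
      (mul_le_mul_of_nonneg_right (hR x x.2) (norm_nonneg _))
  rw [inner_sub_right] at h2
  linarith

theorem cost_identity {K : Set (E d)} (hK : IsCompact K) (hKn : K.Nonempty) {ρ : Measure (E d)}
    [IsFiniteMeasure ρ] (hρ : ∀ᵐ x ∂ρ, x ∈ K) {φ : E d → ℝ} (hφ : Continuous φ)
    {S : E d → E d} (hS : Measurable S) {L : ℝ} (hSL : ∀ᵐ x ∂ρ, ‖S x‖ ≤ L)
    (hsub : ∀ᵐ x ∂ρ, ∀ x', φ x + ⟪x' - x, S x⟫ ≤ φ x') {T : E d → E d} (hT : Measurable T)
    (hTS : ρ.map T = ρ.map S) :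
    (∀ᵐ x ∂ρ, ‖T x‖ ≤ L) ∧ ∫ x, ‖x - T x‖ ^ 2 ∂ρ = ∫ x, ‖x - S x‖ ^ 2 ∂ρ +
      2 * ∫ x, (φ x + conj K φ (T x) - ⟪x, T x⟫) ∂ρ := by
  have hc := continuous_conj hK hKn hφ
  have hm : MeasurableSet {y : E d | ‖y‖ ≤ L} := (isClosed_le (by fun_prop) (by fun_prop)).measurableSet
  have hTL : ∀ᵐ x ∂ρ, ‖T x‖ ≤ L := by
    have h1 := (ae_map_iff hS.aemeasurable hm).2 hSL
    rw [← hTS] at h1
    exact (ae_map_iff hT.aemeasurable hm).1 h1
  refine ⟨hTL, ?_⟩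
  have key : ∀ {U : E d → E d}, Measurable U → (∀ᵐ x ∂ρ, ‖U x‖ ≤ L) →
      ∫ x, ‖x - U x‖ ^ 2 ∂ρ = ∫ x, (‖x‖ ^ 2 - 2 * φ x) ∂ρ +
        ∫ y, (‖y‖ ^ 2 - 2 * conj K φ y) ∂(ρ.map U) +
        2 * ∫ x, (φ x + conj K φ (U x) - ⟪x, U x⟫) ∂ρ := by
    intro U hU hUL
    have i1 := integrable_comp_pair hK hρ hU hUL (F := fun p => ‖p.1‖ ^ 2 - 2 * φ p.1)
      (by fun_prop)
    have i2 := integrable_comp_pair hK hρ hU hUL (F := fun p => ‖p.2‖ ^ 2 - 2 * conj K φ p.2)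
      (by fun_prop)
    have i3 := integrable_comp_pair hK hρ hU hUL
      (F := fun p => 2 * (φ p.1 + conj K φ p.2 - ⟪p.1, p.2⟫)) (by fun_prop)
    rw [integral_map hU.aemeasurable (Continuous.aestronglyMeasurable (by fun_prop)),
      ← integral_const_mul, ← integral_add i1 i2, ← integral_add (i1.fun_add i2) i3]
    congr 1
    ext x
    rw [norm_sub_sq_real]
    ring
  have h0 : ∫ x, (φ x + conj K φ (S x) - ⟪x, S x⟫) ∂ρ = 0 := by
    rw [integral_congr_ae (g := fun _ => 0), integral_zero]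
    filter_upwards [hρ, hsub] with x hx h
    have : Nonempty K := hKn.to_subtype
    have h1 := le_conj hK hφ hx (S x)
    have h2 : conj K φ (S x) ≤ ⟪x, S x⟫ - φ x := ciSup_le fun x' => by
      have := h x'
      rw [inner_sub_left] at this
      linarith
    linarith
  rw [key hT hTL, key hS hSL, hTS, h0]
  ring

theorem lintegral_cost_eq {K : Set (E d)} (hK : IsCompact K) {ρ : Measure (E d)}
    [IsFiniteMeasure ρ] (hρ : ∀ᵐ x ∂ρ, x ∈ K) {T : E d → E d} (hT : Measurable T) {L : ℝ}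
    (hTL : ∀ᵐ x ∂ρ, ‖T x‖ ≤ L) :
    ∫⁻ x, ‖x - T x‖ₑ ^ 2 ∂ρ = ENNReal.ofReal (∫ x, ‖x - T x‖ ^ 2 ∂ρ) := by
  rw [ofReal_integral_eq_lintegral_ofReal
    (integrable_comp_pair hK hρ hT hTL (F := fun p => ‖p.1 - p.2‖ ^ 2) (by fun_prop))
    (Eventually.of_forall fun x => sq_nonneg _)]
  congr 1
  ext x
  rw [← ofReal_norm, ← ENNReal.ofReal_pow (norm_nonneg _)]

theorem subgrad_optimal {K : Set (E d)} (hK : IsCompact K) (hKn : K.Nonempty) {ρ : Measure (E d)}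
    [IsFiniteMeasure ρ] (hρ : ∀ᵐ x ∂ρ, x ∈ K) {φ : E d → ℝ} (hφ : Continuous φ)
    {S : E d → E d} (hS : Measurable S) {L : ℝ} (hSL : ∀ᵐ x ∂ρ, ‖S x‖ ≤ L)
    (hsub : ∀ᵐ x ∂ρ, ∀ x', φ x + ⟪x' - x, S x⟫ ≤ φ x') {T : E d → E d} (hT : Measurable T)
    (hTS : ρ.map T = ρ.map S) : ∫⁻ x, ‖x - S x‖ₑ ^ 2 ∂ρ ≤ ∫⁻ x, ‖x - T x‖ₑ ^ 2 ∂ρ := by
  obtain ⟨hTL, h⟩ := cost_identity hK hKn hρ hφ hS hSL hsub hT hTS
  rw [lintegral_cost_eq hK hρ hT hTL, lintegral_cost_eq hK hρ hS hSL, h]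
  apply ENNReal.ofReal_le_ofReal
  have : 0 ≤ ∫ x, (φ x + conj K φ (T x) - ⟪x, T x⟫) ∂ρ := by
    apply integral_nonneg_of_ae
    filter_upwards [hρ] with x hx
    have := le_conj hK hφ hx (T x)
    simp only [Pi.zero_apply]
    linarith
  linarith

theorem subgrad_unique {K : Set (E d)} (hK : IsCompact K) (hKn : K.Nonempty) {ρ : Measure (E d)}
    [IsFiniteMeasure ρ] (hρ : ∀ᵐ x ∂ρ, x ∈ interior K) {φ : E d → ℝ} (hφ : Continuous φ)
    (hφd : ∀ᵐ x ∂ρ, DifferentiableAt ℝ φ x)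
    {S : E d → E d} (hS : Measurable S) {L : ℝ} (hSL : ∀ᵐ x ∂ρ, ‖S x‖ ≤ L)
    (hsub : ∀ᵐ x ∂ρ, ∀ x', φ x + ⟪x' - x, S x⟫ ≤ φ x') {T : E d → E d} (hT : Measurable T)
    (hTS : ρ.map T = ρ.map S) (hle : ∫⁻ x, ‖x - T x‖ₑ ^ 2 ∂ρ ≤ ∫⁻ x, ‖x - S x‖ₑ ^ 2 ∂ρ) :
    T =ᵐ[ρ] S := by
  have hρ' : ∀ᵐ x ∂ρ, x ∈ K := hρ.mono fun x hx => interior_subset hx
  have hc := continuous_conj hK hKn hφ
  obtain ⟨hTL, h⟩ := cost_identity hK hKn hρ' hφ hS hSL hsub hT hTS
  rw [lintegral_cost_eq hK hρ' hT hTL, lintegral_cost_eq hK hρ' hS hSL, h,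
    ENNReal.ofReal_le_ofReal_iff (integral_nonneg fun x => sq_nonneg _)] at hle
  have hnn : 0 ≤ᵐ[ρ] fun x => φ x + conj K φ (T x) - ⟪x, T x⟫ := by
    filter_upwards [hρ'] with x hx
    have := le_conj hK hφ hx (T x)
    simp only [Pi.zero_apply]
    linarith
  have h0 : ∫ x, (φ x + conj K φ (T x) - ⟪x, T x⟫) ∂ρ = 0 :=
    le_antisymm (by linarith) (integral_nonneg_of_ae hnn)
  have h1 := (integral_eq_zero_iff_of_nonneg_ae hnn (integrable_comp_pair hK hρ' hT hTL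
      (F := fun p => φ p.1 + conj K φ p.2 - ⟪p.1, p.2⟫) (by fun_prop))).1 h0
  filter_upwards [hρ, hφd, hsub, h1] with x hx hd hs h1
  simp only [Pi.zero_apply] at h1
  rw [← gradient_eq_of_subgrad hd (Eventually.of_forall hs)]
  symm
  apply gradient_eq_of_subgrad hd
  filter_upwards [mem_interior_iff_mem_nhds.1 hx] with x' hx'
  have := le_conj hK hφ hx' (T x)
  rw [inner_sub_left]
  linarith

theorem exists_subseq_lim {L : ℝ≥0} (φ : ℕ → E d → ℝ) (hφ : ∀ n, LipschitzWith L (φ n))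
    (h0 : ∀ n, φ n 0 = 0) : ∃ σ : ℕ → ℕ, StrictMono σ ∧ ∃ ψ : E d → ℝ, LipschitzWith L ψ ∧
      ∀ x, Tendsto (fun n => φ (σ n) x) atTop (𝓝 (ψ x)) := by
  set u := TopologicalSpace.denseSeq (E d)
  have hu : DenseRange u := TopologicalSpace.denseRange_denseSeq _
  obtain ⟨a, -, σ, hσ, hlim⟩ := (isCompact_univ_pi fun k : ℕ =>
    isCompact_closedBall (0 : ℝ) (L * ‖u k‖)).tendsto_subseq (x := fun n k => φ n (u k))
    (fun n k _ => by
      have := (hφ n).dist_le_mul (u k) 0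
      rw [h0, dist_zero_right (u k)] at this
      exact this)
  have hc : ∀ x, CauchySeq fun n => φ (σ n) x := by
    intro x
    rw [Metric.cauchySeq_iff]
    intro ε hε
    obtain ⟨k, hk⟩ := hu.exists_dist_lt x (show 0 < ε / (3 * (L + 1)) by positivity)
    have h1 : CauchySeq fun n => φ (σ n) (u k) := (tendsto_pi_nhds.1 hlim k).cauchySeq
    obtain ⟨N, hN⟩ := Metric.cauchySeq_iff.1 h1 (ε / 3) (by positivity)
    refine ⟨N, fun m hm n hn => ?_⟩
    have h2 : (L : ℝ) * dist x (u k) ≤ ε / 3 := by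
      rw [lt_div_iff₀ (by positivity)] at hk
      nlinarith [dist_nonneg (x := x) (y := u k)]
    have h3 := (hφ (σ m)).dist_le_mul x (u k)
    have h4 := (hφ (σ n)).dist_le_mul x (u k)
    have h5 := hN m hm n hn
    have h6 := dist_triangle4 (φ (σ m) x) (φ (σ m) (u k)) (φ (σ n) (u k)) (φ (σ n) x)
    rw [dist_comm (φ (σ n) (u k))] at h6
    linarith
  choose ψ hψ using fun x => cauchySeq_tendsto_of_complete (hc x)
  refine ⟨σ, hσ, ψ, LipschitzWith.of_dist_le_mul fun x x' => ?_, hψ⟩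
  exact le_of_tendsto' ((hψ x).dist (hψ x')) fun n => (hφ _).dist_le_mul x x'

theorem subgrad_limit {φ : ℕ → E d → ℝ} {ψ : E d → ℝ} {l : Filter ℕ} [l.NeBot]
    (hψ : ∀ x, Tendsto (fun n => φ n x) l (𝓝 (ψ x))) {x : E d} {p : ℕ → E d} {q : E d}
    (hp : ∀ n x', φ n x + ⟪x' - x, p n⟫ ≤ φ n x') (hq : Tendsto p l (𝓝 q)) (x' : E d) :
    ψ x + ⟪x' - x, q⟫ ≤ ψ x' :=
  le_of_tendsto_of_tendsto' ((hψ x).add (tendsto_const_nhds.inner hq)) (hψ x') fun n => hp n x'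

theorem subgrad_tendsto {φ : ℕ → E d → ℝ} {ψ : E d → ℝ}
    (hψ : ∀ x, Tendsto (fun n => φ n x) atTop (𝓝 (ψ x))) {x : E d} {p : ℕ → E d} {L : ℝ}
    (hL : ∀ n, ‖p n‖ ≤ L) (hp : ∀ n x', φ n x + ⟪x' - x, p n⟫ ≤ φ n x')
    (hd : DifferentiableAt ℝ ψ x) : Tendsto p atTop (𝓝 (gradient ψ x)) := by
  rw [tendsto_iff_ultrafilter]
  intro U hU
  obtain ⟨q, -, hq⟩ := (isCompact_closedBall (0 : E d) L).ultrafilter_le_nhds (U.map p) (by
    rw [Ultrafilter.coe_map, le_principal_iff, mem_map]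
    exact Eventually.of_forall fun n => mem_closedBall_zero_iff.2 (hL n))
  have hq' : Tendsto p U (𝓝 q) := hq
  rw [gradient_eq_of_subgrad hd (Eventually.of_forall
    (subgrad_limit (fun x => (hψ x).mono_left hU) hp hq'))]
  exact hq'

theorem map_eq_of_tendsto {X X' : Type*} [MeasurableSpace X] [MeasurableSpace X']
    {ρ : Measure X} {π : Measure X'} [IsFiniteMeasure ρ] [IsFiniteMeasure π]
    {f : ℕ → X → E d} {g : ℕ → X' → E d} {f₀ : X → E d} {g₀ : X' → E d}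
    (hf : ∀ n, Measurable (f n)) (hg : ∀ n, Measurable (g n)) (hf₀ : Measurable f₀)
    (hg₀ : Measurable g₀) (hfl : ∀ᵐ x ∂ρ, Tendsto (fun n => f n x) atTop (𝓝 (f₀ x)))
    (hgl : ∀ᵐ x ∂π, Tendsto (fun n => g n x) atTop (𝓝 (g₀ x)))
    (h : ∀ n, ρ.map (f n) = π.map (g n)) : ρ.map f₀ = π.map g₀ := by
  apply ext_of_forall_integral_eq_of_IsFiniteMeasure
  intro ζ
  have hζ : Continuous ζ := ζ.continuous
  rw [integral_map hf₀.aemeasurable hζ.aestronglyMeasurable,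
    integral_map hg₀.aemeasurable hζ.aestronglyMeasurable]
  have l1 := tendsto_integral_of_dominated_convergence (μ := ρ) (F := fun n x => ζ (f n x))
    (f := fun x => ζ (f₀ x)) (fun _ => ‖ζ‖)
    (fun n => (hζ.measurable.comp (hf n)).aestronglyMeasurable) (integrable_const _)
    (fun n => Eventually.of_forall fun x => ζ.norm_coe_le_norm _)
    (hfl.mono fun x hx => (hζ.tendsto _).comp hx)
  have l2 := tendsto_integral_of_dominated_convergence (μ := π) (F := fun n x => ζ (g n x))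
    (f := fun x => ζ (g₀ x)) (fun _ => ‖ζ‖)
    (fun n => (hζ.measurable.comp (hg n)).aestronglyMeasurable) (integrable_const _)
    (fun n => Eventually.of_forall fun x => ζ.norm_coe_le_norm _)
    (hgl.mono fun x hx => (hζ.tendsto _).comp hx)
  refine tendsto_nhds_unique l1 (l2.congr fun n => ?_)
  rw [← integral_map (hf n).aemeasurable hζ.aestronglyMeasurable,
    ← integral_map (hg n).aemeasurable hζ.aestronglyMeasurable, h n]

theorem measurable_gradient (φ : E d → ℝ) : Measurable (gradient φ) :=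
  (InnerProductSpace.toDual ℝ (E d)).symm.continuous.measurable.comp (measurable_fderiv ℝ φ)

end Crest.Agent.OT
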