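import Mathlib
import Crest.Agent.OT.CellPL

/-!
# Stability of the cell moments under change of density
-/

set_option autoImplicit false

open MeasureTheory Set Filter Topology
open scoped ENNReal RealInnerProductSpace

namespace Crest.Agent.OT

variable {d : ℕ} {J : Type*} [Fintype J] [Nonempty J]

theorem alg_hell {α β m b δ q : ℝ} (hα : 0 < α) (hβ : 0 < β) (hαm : α ≤ m) (hbβ : b / 2 ≤ β)
    (hbδ : b + δ = m) (hq : δ ^ 2 ≤ b * q) (hq0 : 0 ≤ q) :
    (α + β) / 2 - √(α * β) ≤ 2 * q + β * (m / α - b / β) ^ 2 := by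
  refine (hellinger_le hα hβ).trans ?_
  set l := m / α - b / β with hl
  have h1 : 1 ≤ m / α := (one_le_div hα).2 hαm
  have h2 : (α - β) * (m / α) = δ - β * l := by
    rw [hl, ← hbδ]; field_simp; ring
  have h3 : (α - β) ^ 2 ≤ (δ - β * l) ^ 2 := by
    rw [← h2, mul_pow]
    have : 1 ≤ (m / α) ^ 2 := one_le_pow₀ h1
    nlinarith [sq_nonneg (α - β)]
  rw [div_le_iff₀ (by positivity)]
  have h4 : δ ^ 2 ≤ 2 * β * q := hq.trans (by nlinarith)
  nlinarith [sq_nonneg (δ + β * l)]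

theorem half_le_sqrt {α β : ℝ} (hβ : 0 < β) (h : β ≤ 4 * α) : β / 2 ≤ √(α * β) := by
  apply Real.le_sqrt_of_sq_le
  nlinarith

theorem mom_stab {K : Set (E d)} (hK : IsCompact K) (hKc : Convex ℝ K) {R : ℝ} (hR0 : 0 < R)
    (hR : ∀ x ∈ K, ‖x‖ ≤ R) {y : J → E d} (hy : Function.Injective y) {m : J → ℝ}
    (hm0 : ∀ j, 0 < m j) {g : E d → ℝ} (hg : Continuous g) (hg2 : ∀ x ∈ K, |g x| ≤ 1 / 2)
    {ψ ψ' : J → ℝ} (hb : Balanced K (fun _ => 1) m y ψ)
    (hb' : Balanced K (fun x => 1 + g x) m y ψ') (v : J → E d) {s : ℝ} (hs : 0 < s) :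
    ∑ j, (mom K (fun _ => 1) y ψ j (v j) - mom K (fun x => 1 + g x) y ψ' j (v j)) ≤
      20 * s * ∑ j, m j * ‖v j‖ ^ 2 + 2049 * R ^ 2 * (∫ x in K, g x ^ 2) / s := by
  set ε : ℝ := 1 / (128 * R ^ 2) with hεd
  have hε : 0 < ε := by positivity
  have hεR : ε * R ^ 2 = 1 / 128 := by rw [hεd]; field_simp
  have hεR' : ε * R ^ 2 ≤ 1 := by rw [hεR]; norm_num
  have hA := fun j => isCompact_inter_cell hK y ψ j
  have hB := fun j => isCompact_inter_cell hK y ψ' j
  set α : J → ℝ := fun j => ∫ x in K ∩ cell y ψ j, gw ε x with hαd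
  set β : J → ℝ := fun j => ∫ x in K ∩ cell y ψ' j, gw ε x with hβd
  set b : J → ℝ := fun j => ∫ x in K ∩ cell y ψ' j, (1 : ℝ) with hbd
  set δ : J → ℝ := fun j => ∫ x in K ∩ cell y ψ' j, g x with hδd
  set q : J → ℝ := fun j => ∫ x in K ∩ cell y ψ' j, g x ^ 2 with hqd
  have hm : ∀ j, ∫ x in K ∩ cell y ψ j, (1 : ℝ) = m j := hb
  have hαm : ∀ j, α j ≤ m j := fun j => by
    rw [← hm j]
    exact setIntegral_mono_on (intOn (hA j) (by fun_prop)) (intOn (hA j) (by fun_prop))
      (hA j).measurableSet fun x _ => gw_le_one hε.le x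
  have hmα : ∀ j, m j / 2 ≤ α j := fun j => by
    rw [← hm j, ← integral_div]
    exact setIntegral_mono_on (intOn (hA j) (by fun_prop)) (intOn (hA j) (by fun_prop))
      (hA j).measurableSet fun x hx => half_le_gw hε.le hεR' (hR x hx.1)
  have hβb : ∀ j, β j ≤ b j := fun j =>
    setIntegral_mono_on (intOn (hB j) (by fun_prop)) (intOn (hB j) (by fun_prop))
      (hB j).measurableSet fun x _ => gw_le_one hε.le x
  have hbβ : ∀ j, b j / 2 ≤ β j := fun j => by
    simp only [hbd]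
    rw [← integral_div]
    exact setIntegral_mono_on (intOn (hB j) (by fun_prop)) (intOn (hB j) (by fun_prop))
      (hB j).measurableSet fun x hx => half_le_gw hε.le hεR' (hR x hx.1)
  have hbδ : ∀ j, b j + δ j = m j := fun j => by
    simp only [hbd, hδd]
    rw [← integral_add (intOn (hB j) (by fun_prop)) (intOn (hB j) (by fun_prop))]
    exact hb' j
  have hδb : ∀ j, |δ j| ≤ b j / 2 := fun j => by
    simp only [hbd, hδd]
    rw [← integral_div]
    refine abs_integral_le_integral_abs.trans ?_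
    exact setIntegral_mono_on (intOn (hB j) (by fun_prop)) (intOn (hB j) (by fun_prop))
      (hB j).measurableSet fun x hx => hg2 x hx.1
  have hb0 : ∀ j, 0 < b j := fun j => by
    have := abs_le.1 (hδb j); have := hbδ j; have := hm0 j; linarith
  have hbm : ∀ j, b j ≤ 2 * m j := fun j => by
    have := abs_le.1 (hδb j); have := hbδ j; linarith
  have hα0 : ∀ j, 0 < α j := fun j => by have := hmα j; have := hm0 j; linarith
  have hβ0 : ∀ j, 0 < β j := fun j => by have := hbβ j; have := hb0 j; linarith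
  have hβα : ∀ j, β j ≤ 4 * α j := fun j => by
    have := hβb j; have := hbm j; have := hmα j; linarith
  have hq0 : ∀ j, 0 ≤ q j := fun j => integral_nonneg fun x => sq_nonneg _
  have hδq : ∀ j, δ j ^ 2 ≤ b j * q j := fun j => by
    have h : ∀ τ : ℝ, 2 * τ * δ j - τ ^ 2 * b j ≤ q j := fun τ => by
      simp only [hbd, hδd, hqd]
      rw [← integral_const_mul, ← integral_const_mul,
        ← integral_sub (intOn (hB j) (by fun_prop)) (intOn (hB j) (by fun_prop))]
      exact setIntegral_mono_on (intOn (hB j) (by fun_prop)) (intOn (hB j) (by fun_prop))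
        (hB j).measurableSet fun x _ => by nlinarith [sq_nonneg (τ - g x)]
    have h1 := h (δ j / b j)
    have h2 : 2 * (δ j / b j) * δ j - (δ j / b j) ^ 2 * b j = δ j ^ 2 / b j := by
      have := (hb0 j).ne'
      field_simp; ring
    rw [h2, div_le_iff₀ (hb0 j)] at h1
    linarith
  have hqs : ∑ j, q j = ∫ x in K, g x ^ 2 :=
    (integral_eq_sum_cells hy ψ' hK.measurableSet (intOn hK (by fun_prop))).symm
  set H := ∑ j, ((α j + β j) / 2 - √(α j * β j)) with hHd
  set lam : J → ℝ := fun j => m j / α j - b j / β j with hlam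
  -- Step 1
  have step1 : 2 * ∑ j, β j * lam j ^ 2 ≤ H := by
    set ℓ : ℝ := 2 * ε * R with hℓ
    have hℓ0 : 0 < ℓ := by positivity
    have h := sum_cells hK hKc hy ψ ψ' hε.le hα0 hβ0
      (G := fun j x => lam j / ℓ ^ 2 * uw ε x) (fun j => by fun_prop)
      (ℓ := fun j => |lam j / ℓ ^ 2| * ℓ) (fun j x hx x' hx' => by
        rw [← mul_sub, mul_assoc]
        refine (le_abs_self _).trans ?_
        rw [abs_mul]
        exact mul_le_mul_of_nonneg_left (uw_lip hε.le hεR' (hR x hx) (hR x' hx')) (abs_nonneg _))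
    simp only [mul_assoc, uw_mul_gw] at h
    refine le_trans ?_ h
    rw [Finset.mul_sum]
    refine Finset.sum_le_sum fun j _ => ?_
    rw [integral_const_mul, integral_const_mul, hm j]
    change _ ≤ √(α j * β j) * (ε / 8 * (2 * (lam j / ℓ ^ 2 * m j / α j -
      lam j / ℓ ^ 2 * b j / β j) - (|lam j / ℓ ^ 2| * ℓ) ^ 2))
    have e : ε / 8 * (2 * (lam j / ℓ ^ 2 * m j / α j - lam j / ℓ ^ 2 * b j / β j) -
        (|lam j / ℓ ^ 2| * ℓ) ^ 2) = 4 * lam j ^ 2 := by
      rw [mul_pow |_|, sq_abs, mul_div_assoc, mul_div_assoc, ← mul_sub]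
      change ε / 8 * (2 * (lam j / ℓ ^ 2 * lam j) - _) = _
      have : ℓ ^ 2 = ε / 32 := by
        rw [hℓ]; nlinarith
      rw [this]
      field_simp
      ring
    rw [e]
    have := half_le_sqrt (hβ0 j) (hβα j)
    nlinarith [sq_nonneg (lam j)]
  have hH : H ≤ 4 * ∫ x in K, g x ^ 2 := by
    have h : H ≤ ∑ j, (2 * q j + β j * lam j ^ 2) := Finset.sum_le_sum fun j _ =>
      alg_hell (hα0 j) (hβ0 j) (hαm j) (hbβ j) (hbδ j) (hδq j) (hq0 j)
    rw [Finset.sum_add_distrib, ← Finset.mul_sum, hqs] at h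
    linarith
  -- Step 2
  set c : J → ℝ := fun j => (∫ x in K ∩ cell y ψ j, ⟪x, v j⟫) / m j with hcd
  have hvx : ∀ j, ∀ x ∈ K, |⟪x, v j⟫| ≤ R * ‖v j‖ := fun j x hx =>
    (abs_real_inner_le_norm _ _).trans (mul_le_mul_of_nonneg_right (hR x hx) (norm_nonneg _))
  have hc : ∀ j, |c j| ≤ R * ‖v j‖ := fun j => by
    simp only [hcd]
    rw [abs_div, abs_of_pos (hm0 j), div_le_iff₀ (hm0 j), ← hm j, ← integral_const_mul]
    refine abs_integral_le_integral_abs.trans ?_
    exact setIntegral_mono_on (intOn (hA j) (by fun_prop)) (intOn (hA j) (by fun_prop))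
      (hA j).measurableSet fun x hx => by simpa using hvx j x hx.1
  have hvc : ∀ j, ∀ x ∈ K, |⟪x, v j⟫ - c j| ≤ 2 * R * ‖v j‖ := fun j x hx => by
    refine (abs_sub _ _).trans ?_
    linarith [hvx j x hx, hc j]
  set I : J → ℝ := fun j => ∫ x in K ∩ cell y ψ' j, (⟪x, v j⟫ - c j) with hId
  set θ : J → ℝ := fun j => β j / √(α j * β j) with hθd
  have hsq : ∀ j, 0 < √(α j * β j) := fun j => Real.sqrt_pos.2 (mul_pos (hα0 j) (hβ0 j))
  have hθ0 : ∀ j, 0 < θ j := fun j => div_pos (hβ0 j) (hsq j)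
  have hθ2 : ∀ j, θ j ≤ 2 := fun j => by
    simp only [hθd]
    rw [div_le_iff₀ (hsq j)]
    linarith [half_le_sqrt (hβ0 j) (hβα j)]
  have step2 : ε / 8 * (-2 * s * ∑ j, I j - 36 * s ^ 2 * ∑ j, m j * ‖v j‖ ^ 2) ≤ H := by
    have h := sum_cells hK hKc hy ψ ψ' hε.le hα0 hβ0
      (G := fun j x => s * θ j * ((⟪x, v j⟫ - c j) * uw ε x)) (fun j => by fun_prop)
      (ℓ := fun j => s * θ j * (3 * ‖v j‖)) (fun j x hx x' hx' => by
        rw [← mul_sub, mul_assoc (s * θ j)]
        refine mul_le_mul_of_nonneg_left ?_ (mul_pos hs (hθ0 j)).le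
        have e : (⟪x, v j⟫ - c j) * uw ε x - (⟪x', v j⟫ - c j) * uw ε x' =
            ⟪x - x', v j⟫ * uw ε x + (⟪x', v j⟫ - c j) * (uw ε x - uw ε x') := by
          rw [inner_sub_left]; ring
        rw [e]
        have h1 : ⟪x - x', v j⟫ * uw ε x ≤ (‖x - x'‖ * ‖v j‖) * 2 := by
          refine (le_abs_self _).trans ?_
          rw [abs_mul, abs_of_pos (show 0 < uw ε x from Real.exp_pos _)]
          exact mul_le_mul (abs_real_inner_le_norm _ _) (uw_le_two hε.le hεR' (hR x hx))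
            (Real.exp_pos _).le (by positivity)
        have h2 : (⟪x', v j⟫ - c j) * (uw ε x - uw ε x') ≤
            (2 * R * ‖v j‖) * (2 * ε * R * ‖x - x'‖) := by
          refine (le_abs_self _).trans ?_
          rw [abs_mul]
          exact mul_le_mul (hvc j x' hx') (uw_lip hε.le hεR' (hR x hx) (hR x' hx'))
            (abs_nonneg _) (by positivity)
        have h3 : (2 * R * ‖v j‖) * (2 * ε * R * ‖x - x'‖) =
            4 * (ε * R ^ 2) * (‖x - x'‖ * ‖v j‖) := by ring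
        rw [h3, hεR] at h2
        have h4 : 0 ≤ ‖x - x'‖ * ‖v j‖ := by positivity
        linarith)
    simp only [mul_assoc, uw_mul_gw, mul_one] at h
    refine le_trans ?_ h
    rw [Finset.mul_sum, Finset.mul_sum, ← Finset.sum_sub_distrib, Finset.mul_sum]
    refine Finset.sum_le_sum fun j _ => ?_
    rw [integral_const_mul, integral_const_mul, integral_const_mul, integral_const_mul]
    have e0 : ∫ x in K ∩ cell y ψ j, (⟪x, v j⟫ - c j) = 0 := by
      rw [integral_sub (intOn (hA j) (by fun_prop)) (intOn (hA j) (by fun_prop))]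
      have : ∫ x in K ∩ cell y ψ j, c j = c j * m j := by
        rw [← hm j, ← integral_const_mul]; simp
      rw [this, hcd, div_mul_cancel₀ _ (hm0 j).ne', sub_self]
    rw [e0]
    change _ ≤ √(α j * β j) * (ε / 8 * (2 * (s * (θ j * 0) / α j - s * (θ j * I j) / β j) -
      (s * (θ j * (3 * ‖v j‖))) ^ 2))
    have e1 : √(α j * β j) * θ j = β j := by
      simp only [hθd]; rw [mul_div_cancel₀ _ (hsq j).ne']
    have e2 : √(α j * β j) * (ε / 8 * (2 * (s * (θ j * 0) / α j - s * (θ j * I j) / β j) -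
      (s * (θ j * (3 * ‖v j‖))) ^ 2)) =
        ε / 8 * (-2 * s * ((√(α j * β j) * θ j) / β j * I j) -
          9 * s ^ 2 * ((√(α j * β j) * θ j) * θ j * ‖v j‖ ^ 2)) := by ring
    rw [e2, e1, div_self (hβ0 j).ne', one_mul]
    refine mul_le_mul_of_nonneg_left ?_ (by positivity)
    have h1 : β j * θ j ≤ 4 * m j := by
      have := hβb j; have := hbm j; have := hθ2 j; have := hβ0 j
      nlinarith
    have h2 : 9 * s ^ 2 * (β j * θ j * ‖v j‖ ^ 2) ≤ 9 * s ^ 2 * (4 * m j * ‖v j‖ ^ 2) := by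
      gcongr
    linarith
  have step3 : ∀ j, mom K (fun _ => 1) y ψ j (v j) - mom K (fun x => 1 + g x) y ψ' j (v j) ≤
      -I j + 2 * s * (m j * ‖v j‖ ^ 2) + R ^ 2 / s * q j := fun j => by
    have e1 : mom K (fun _ => 1) y ψ j (v j) = ∫ x in K ∩ cell y ψ' j, c j * (1 + g x) := by
      rw [integral_const_mul, hb' j, hcd, div_mul_cancel₀ _ (hm0 j).ne']
      simp [mom]
    have e2 : -I j + s * ‖v j‖ ^ 2 * b j + R ^ 2 / s * q j = ∫ x in K ∩ cell y ψ' j,
        (-(⟪x, v j⟫ - c j) + s * ‖v j‖ ^ 2 * 1 + R ^ 2 / s * g x ^ 2) := by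
      rw [integral_add (intOn (hB j) (by fun_prop)) (intOn (hB j) (by fun_prop)),
        integral_add (intOn (hB j) (by fun_prop)) (intOn (hB j) (by fun_prop)),
        integral_neg, integral_const_mul, integral_const_mul]
    have h3 : mom K (fun _ => 1) y ψ j (v j) - mom K (fun x => 1 + g x) y ψ' j (v j) ≤
        -I j + s * ‖v j‖ ^ 2 * b j + R ^ 2 / s * q j := by
      rw [e1, e2, mom, ← integral_sub (intOn (hB j) (by fun_prop)) (intOn (hB j) (by fun_prop))]
      refine setIntegral_mono_on (intOn (hB j) (by fun_prop)) (intOn (hB j) (by fun_prop))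
        (hB j).measurableSet fun x hx => ?_
      have h1 : -((⟪x, v j⟫ - c j) * g x) ≤ (2 * R * ‖v j‖) * |g x| := by
        refine (neg_le_abs _).trans ?_
        rw [abs_mul]
        exact mul_le_mul_of_nonneg_right (hvc j x hx.1) (abs_nonneg _)
      have h2 : (2 * R * ‖v j‖) * |g x| ≤ s * ‖v j‖ ^ 2 + R ^ 2 / s * g x ^ 2 := by
        rw [← sq_abs (g x)]
        have : s * ‖v j‖ ^ 2 + R ^ 2 / s * |g x| ^ 2 - (2 * R * ‖v j‖) * |g x| =
            (s * ‖v j‖ - R * |g x|) ^ 2 / s := by field_simp; ring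
        have h0 : 0 ≤ (s * ‖v j‖ - R * |g x|) ^ 2 / s := by positivity
        linarith
      linarith
    have h4 : s * ‖v j‖ ^ 2 * b j ≤ s * ‖v j‖ ^ 2 * (2 * m j) :=
      mul_le_mul_of_nonneg_left (hbm j) (by positivity)
    linarith
  refine (Finset.sum_le_sum fun j _ => step3 j).trans ?_
  rw [Finset.sum_add_distrib, Finset.sum_add_distrib, ← Finset.mul_sum, ← Finset.mul_sum, hqs,
    Finset.sum_neg_distrib]
  set W := ∑ j, m j * ‖v j‖ ^ 2
  set Q := ∫ x in K, g x ^ 2
  set S := ∑ j, I j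
  have h1 : ε / 8 * (-2 * s * S - 36 * s ^ 2 * W) ≤ 4 * Q := step2.trans hH
  have h2 : -S ≤ 18 * s * W + 2048 * R ^ 2 * Q / s := by
    have h3 : -2 * s * S - 36 * s ^ 2 * W ≤ 4096 * R ^ 2 * Q := by
      have := mul_le_mul_of_nonneg_left h1 (show 0 ≤ 1024 * R ^ 2 by positivity)
      have e : 1024 * R ^ 2 * (ε / 8 * (-2 * s * S - 36 * s ^ 2 * W)) =
          128 * (ε * R ^ 2) * (-2 * s * S - 36 * s ^ 2 * W) := by ring
      rw [e, hεR] at this
      linarith
    have h4 : -S - 18 * s * W ≤ 2048 * R ^ 2 * Q / s := by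
      rw [le_div_iff₀ hs]; linarith
    linarith
  have e : 2049 * R ^ 2 * Q / s = 2048 * R ^ 2 * Q / s + R ^ 2 / s * Q := by ring
  linarith

end Crest.Agent.OT
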