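import Mathlib
import Crest.Agent.OT.MomStab

/-!
# Lipschitz stability of semi-discrete Kantorovich potentials
-/

set_option autoImplicit false

open MeasureTheory Set Filter Topology
open scoped ENNReal RealInnerProductSpace

namespace Crest.Agent.OT

variable {d : ℕ} {J : Type*} [Fintype J] [Nonempty J]

theorem pot_unique {K : Set (E d)} (hK : IsCompact K) (hKc : Convex ℝ K)
    (hKi : (interior K).Nonempty) {y : J → E d} (hy : Function.Injective y) {m : J → ℝ}
    {ψ ψ' : J → ℝ} (hb : Balanced K (fun _ => 1) m y ψ)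
    (hle : kf K (fun _ => 1) m y ψ' ≤ kf K (fun _ => 1) m y ψ) :
    ∃ c, ∀ x ∈ K, pot y ψ' x = pot y ψ x + c := by
  have h1 := kf_sub_mom hK (w := fun _ => 1) continuous_const hy hb y ψ'
  rw [← kf_eq_mom hK continuous_const hy hb] at h1
  have hnn : ∀ j, ∀ x, 0 ≤ (pot y ψ' x - (⟪x, y j⟫ - ψ' j)) * 1 := fun j x => by
    simpa using le_pot y ψ' x j
  have h2 : ∀ j, ∫ x in K ∩ cell y ψ j, (pot y ψ' x - (⟪x, y j⟫ - ψ' j)) * 1 = 0 := by
    intro j
    have h3 : ∑ j, ∫ x in K ∩ cell y ψ j, (pot y ψ' x - (⟪x, y j⟫ - ψ' j)) * 1 = 0 :=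
      le_antisymm (by linarith) (Finset.sum_nonneg fun j _ => integral_nonneg (hnn j))
    exact (Finset.sum_eq_zero_iff_of_nonneg fun j _ => integral_nonneg (hnn j)).1 h3 j
      (Finset.mem_univ j)
  set F : E d → ℝ := fun x => pot y ψ' x - pot y ψ x with hF
  have hFc : Continuous F := by fun_prop
  set S : Set ℝ := range fun j => ψ j - ψ' j with hS
  have hSf : S.Finite := finite_range _
  have h4 : ∀ᵐ x, ∀ j, x ∈ K ∩ cell y ψ j → F x ∈ S := by
    rw [ae_all_iff]
    intro j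
    have hj := (integral_eq_zero_iff_of_nonneg (hnn j)
      (intOn (isCompact_inter_cell hK y ψ j) (by fun_prop))).1 (h2 j)
    have hj' := (ae_restrict_iff' (isCompact_inter_cell hK y ψ j).measurableSet).1 hj
    filter_upwards [hj'] with x hx hxj
    have := hx hxj
    simp only [mul_one, Pi.zero_apply] at this
    refine ⟨j, ?_⟩
    simp only [hF, pot_eq hxj.2]
    linarith
  have h5 : MapsTo F (interior K) S := by
    have ho : IsOpen (interior K ∩ F ⁻¹' Sᶜ) :=
      isOpen_interior.inter (hSf.isClosed.isOpen_compl.preimage hFc)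
    have h0 : volume (interior K ∩ F ⁻¹' Sᶜ) = 0 := by
      rw [measure_eq_zero_iff_ae_notMem]
      filter_upwards [h4] with x hx hx'
      obtain ⟨j, hj⟩ := exists_mem_cell y ψ x
      exact hx'.2 (hx j ⟨interior_subset hx'.1, hj⟩)
    have := (ho.measure_eq_zero_iff volume).1 h0
    intro x hx
    by_contra hx'
    exact (this ▸ (⟨hx, hx'⟩ : x ∈ interior K ∩ F ⁻¹' Sᶜ) : x ∈ (∅ : Set (E d)))
  obtain ⟨x₀, hx₀⟩ := hKi
  refine ⟨F x₀, fun x hx => ?_⟩
  have h6 : ∀ x ∈ interior K, F x = F x₀ := fun x hx =>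
    hKc.interior.isPreconnected.constant_of_mapsTo hSf.isDiscrete hFc.continuousOn h5 hx hx₀
  have h7 : x ∈ closure (interior K) := by
    rw [hKc.closure_interior_eq_closure_of_nonempty_interior ⟨x₀, hx₀⟩]
    exact subset_closure hx
  have h8 : F x = F x₀ :=
    closure_minimal (s := interior K) (t := {x | F x = F x₀}) h6
      (isClosed_eq hFc continuous_const) h7
  rw [← h8]
  simp [hF]

theorem kf_density {K : Set (E d)} (hK : IsCompact K) {h : E d → ℝ} (hh : Continuous h) (t : ℝ)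
    (m : J → ℝ) (y : J → E d) (ψ : J → ℝ) :
    kf K (fun x => 1 + t * h x) m y ψ =
      kf K (fun _ => 1) m y ψ + t * ∫ x in K, pot y ψ x * h x := by
  unfold kf
  rw [← integral_const_mul, add_right_comm,
    ← integral_add (intOn hK (by fun_prop)) (intOn hK (by fun_prop))]
  congr 2
  ext x
  ring

omit [Fintype J] [Nonempty J] in
theorem mom_add_smul {K : Set (E d)} (hK : IsCompact K) {w : E d → ℝ} (hw : Continuous w)
    (y : J → E d) (ψ : J → ℝ) (j : J) (u v : E d) (a : ℝ) :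
    mom K w y ψ j (u + a • v) = mom K w y ψ j u + a * mom K w y ψ j v := by
  have hA := isCompact_inter_cell hK y ψ j
  unfold mom
  rw [← integral_const_mul, ← integral_add (intOn hA (by fun_prop)) (intOn hA (by fun_prop))]
  congr 1
  ext x
  rw [inner_add_right, inner_smul_right]
  ring

omit [Fintype J] [Nonempty J] in
theorem abs_mom_le {K : Set (E d)} (hK : IsCompact K) {R : ℝ} (hR : ∀ x ∈ K, ‖x‖ ≤ R)
    {y : J → E d} {m ψ : J → ℝ} (hb : Balanced K (fun _ => 1) m y ψ) (j : J) (v : E d) :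
    |mom K (fun _ => 1) y ψ j v| ≤ R * ‖v‖ * m j := by
  have hA := isCompact_inter_cell hK y ψ j
  unfold mom
  rw [← hb j, ← integral_const_mul]
  refine abs_integral_le_integral_abs.trans ?_
  refine setIntegral_mono_on (intOn hA (by fun_prop)) (intOn hA (by fun_prop))
    hA.measurableSet fun x hx => ?_
  simp only [mul_one]
  exact (abs_real_inner_le_norm _ _).trans (mul_le_mul_of_nonneg_right (hR x hx.1) (norm_nonneg _))

theorem mixed_diff {K : Set (E d)} (hK : IsCompact K) (hKc : Convex ℝ K) {R : ℝ} (hR0 : 0 < R)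
    (hR : ∀ x ∈ K, ‖x‖ ≤ R) {y z : J → E d}
    (hyz : ∀ s : ℝ, Function.Injective fun j => y j + s • (z j - y j))
    {m : J → ℝ} (hm0 : ∀ j, 0 < m j) (hm : ∑ j, m j = ∫ _ in K, (1 : ℝ))
    {h : E d → ℝ} (hh : Continuous h) (hh0 : ∫ x in K, h x = 0) {t : ℝ} (ht : 0 < t)
    (hth : ∀ x ∈ K, |t * h x| ≤ 1 / 2) {ψ ψ₁ : J → ℝ}
    (hb : Balanced K (fun x => 1 + t * h x) m y ψ) (hb₁ : Balanced K (fun _ => 1) m z ψ₁)
    {s : ℝ} (hs : 0 < s) :
    (∫ x in K, pot y ψ x * h x) - ∫ x in K, pot z ψ₁ x * h x ≤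
      20 * s * ∑ j, m j * ‖z j - y j‖ ^ 2 + 2049 * R ^ 2 * (∫ x in K, h x ^ 2) / s := by
  set B := 20 * s * ∑ j, m j * ‖z j - y j‖ ^ 2 + 2049 * R ^ 2 * (∫ x in K, h x ^ 2) / s with hB
  set w : E d → ℝ := fun x => 1 + t * h x with hw
  have hwc : Continuous w := by fun_prop
  have hw0 : ∀ x ∈ K, 0 ≤ w x := fun x hx => by
    have := abs_le.1 (hth x hx); simp only [hw]; linarith
  have hmw : ∑ j, m j = ∫ x in K, w x := by
    rw [hm, integral_add (intOn hK (by fun_prop)) (intOn hK (by fun_prop)), integral_const_mul,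
      hh0]
    simp
  set Y : ℝ → J → E d := fun s j => y j + s • (z j - y j) with hY
  choose χ0 hχ0 using fun s : ℝ =>
    exists_balanced hK (w := fun _ => 1) continuous_const (fun _ _ => zero_le_one) hm0 hm (hyz s)
  choose χt hχt using fun s : ℝ => exists_balanced hK hwc hw0 hm0 hmw (hyz s)
  set F0 : ℝ → ℝ := fun s => kf K (fun _ => 1) m (Y s) (χ0 s) with hF0
  set Ft : ℝ → ℝ := fun s => kf K w m (Y s) (χt s) with hFt
  set P0 : ℝ → ℝ := fun s => ∑ j, mom K (fun _ => 1) (Y s) (χ0 s) j (z j - y j) with hP0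
  set Pt : ℝ → ℝ := fun s => ∑ j, mom K w (Y s) (χt s) j (z j - y j) with hPt
  have hYY : ∀ a b j, Y b j = Y a j + (b - a) • (z j - y j) := fun a b j => by
    simp only [hY]; rw [add_assoc, ← add_smul]; congr 2; ring
  have h0 : ∀ a b, F0 a + (b - a) * P0 a ≤ F0 b := fun a b => by
    have h1 := mom_le_kf hK (w := fun _ => 1) continuous_const (fun _ _ => zero_le_one) (hyz a)
      (hχ0 a) (Y b) (χ0 b)
    simp only [hYY a b, mom_add_smul hK (w := fun _ => 1) continuous_const,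
      Finset.sum_add_distrib, ← Finset.mul_sum] at h1
    rw [← kf_eq_mom hK continuous_const (hyz a) (hχ0 a)] at h1
    exact h1
  have h1 : ∀ a b, Ft a + (b - a) * Pt a ≤ Ft b := fun a b => by
    have h1 := mom_le_kf hK hwc hw0 (hyz a) (hχt a) (Y b) (χt b)
    simp only [hYY a b, mom_add_smul hK hwc, Finset.sum_add_distrib, ← Finset.mul_sum] at h1
    rw [← kf_eq_mom hK hwc (hyz a) (hχt a)] at h1
    exact h1
  have h2 : ∀ a, P0 a - Pt a ≤ t * B := fun a => by
    have h3 := mom_stab hK hKc hR0 hR (hyz a) hm0 (g := fun x => t * h x) (by fun_prop) hth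
      (hχ0 a) (hχt a) (fun j => z j - y j) (mul_pos ht hs)
    rw [Finset.sum_sub_distrib] at h3
    refine h3.trans (le_of_eq ?_)
    simp only [mul_pow]
    rw [integral_const_mul, hB]
    field_simp
  set D := ∑ j, R * ‖z j - y j‖ * m j with hD
  have h3 : ∀ a, |P0 a| ≤ D := fun a =>
    (Finset.abs_sum_le_sum_abs _ _).trans
      (Finset.sum_le_sum fun j _ => abs_mom_le hK hR (hχ0 a) j _)
  have h4 : ∀ N : ℕ, 0 < N → (Ft 0 - F0 0) - (Ft 1 - F0 1) ≤ t * B + 2 * D / N := by
    intro N hN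
    have hN' : (0 : ℝ) < N := by exact_mod_cast hN
    have h5 : ∀ k : ℕ, (Ft 0 - F0 0) - (Ft (k / N) - F0 (k / N)) ≤
        k / N * (t * B) + (P0 (k / N) - P0 0) / N := by
      intro k
      induction k with
      | zero => simp
      | succ k ih =>
        have a1 := h0 (((k + 1 : ℕ) : ℝ) / N) (k / N)
        have a2 := h1 (k / N) (((k + 1 : ℕ) : ℝ) / N)
        have a3 := h2 (k / N)
        have e1 : ((k + 1 : ℕ) : ℝ) / N - k / N = 1 / N := by push_cast; ring
        have e2 : (k : ℝ) / N - ((k + 1 : ℕ) : ℝ) / N = -(1 / N) := by push_cast; ring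
        have e3 : ((k + 1 : ℕ) : ℝ) / N * (t * B) = k / N * (t * B) + 1 / N * (t * B) := by
          push_cast; ring
        rw [e1] at a2
        rw [e2] at a1
        rw [e3]
        have a4 := mul_le_mul_of_nonneg_left a3 (show 0 ≤ 1 / (N : ℝ) by positivity)
        have e4 : ∀ u : ℝ, u / N = 1 / N * u := fun u => by ring
        rw [e4 (P0 _ - P0 0)] at ih ⊢
        linarith
    have h6 := h5 N
    rw [div_self hN'.ne', one_mul] at h6
    refine h6.trans ?_
    gcongr
    linarith [abs_le.1 (h3 1), abs_le.1 (h3 0)]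
  have h7 : (Ft 0 - F0 0) - (Ft 1 - F0 1) ≤ t * B := by
    have : Tendsto (fun N : ℕ => t * B + 2 * D / N) atTop (𝓝 (t * B + 0)) :=
      tendsto_const_nhds.add (tendsto_const_div_atTop_nhds_zero_nat _)
    rw [add_zero] at this
    exact ge_of_tendsto this (eventually_atTop.2 ⟨1, fun N hN => h4 N hN⟩)
  have hY0 : Y 0 = y := by ext1 j; simp [hY]
  have hY1 : Y 1 = z := by ext1 j; simp [hY]
  have hy : Function.Injective y := hY0 ▸ hyz 0
  have hz : Function.Injective z := hY1 ▸ hyz 1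
  have b1 : kf K w m y ψ ≤ Ft 0 := by
    simp only [hFt, hY0]; exact kf_min hK hwc hw0 hy hb _
  have b2 : F0 0 ≤ kf K (fun _ => 1) m y ψ := by
    have := kf_min hK (w := fun _ => 1) continuous_const (fun _ _ => zero_le_one) (hyz 0)
      (hχ0 0) ψ
    change kf K _ m (Y 0) _ ≤ kf K _ m (Y 0) _ at this
    simp only [hF0]
    rw [hY0] at this ⊢
    exact this
  have b3 : Ft 1 ≤ kf K w m z ψ₁ := by
    have := kf_min hK hwc hw0 (hyz 1) (hχt 1) ψ₁
    change kf K _ m (Y 1) _ ≤ kf K _ m (Y 1) _ at this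
    simp only [hFt]
    rw [hY1] at this ⊢
    exact this
  have b4 : kf K (fun _ => 1) m z ψ₁ ≤ F0 1 := by
    simp only [hF0, hY1]
    exact kf_min hK continuous_const (fun _ _ => zero_le_one) hz hb₁ _
  rw [hw, kf_density hK hh] at b1 b3
  have : t * ((∫ x in K, pot y ψ x * h x) - ∫ x in K, pot z ψ₁ x * h x) ≤ t * B := by linarith
  exact le_of_mul_le_mul_left this ht

omit [Fintype J] [Nonempty J] in
theorem balanced_sub_le {K : Set (E d)} {R : ℝ} (hR : ∀ x ∈ K, ‖x‖ ≤ R) {w : E d → ℝ}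
    {y : J → E d} {m ψ : J → ℝ} (hm0 : ∀ j, 0 < m j) (hb : Balanced K w m y ψ) (j k : J) :
    ψ j - ψ k ≤ R * ‖y j - y k‖ := by
  have hne : (K ∩ cell y ψ j).Nonempty := by
    by_contra h
    rw [not_nonempty_iff_eq_empty] at h
    have := hb j
    rw [h] at this
    simp only [Measure.restrict_empty, integral_zero_measure] at this
    exact (hm0 j).ne this
  obtain ⟨x, hx, hxj⟩ := hne
  have h1 := hxj k
  have h2 : ⟪x, y j - y k⟫ ≤ R * ‖y j - y k‖ :=
    (real_inner_le_norm _ _).trans (mul_le_mul_of_nonneg_right (hR x hx) (norm_nonneg _))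
  rw [inner_sub_right] at h2
  linarith

/-- Lipschitz stability of the potentials with respect to the positions of the atoms. -/
theorem pot_stab {K : Set (E d)} (hK : IsCompact K) (hKc : Convex ℝ K)
    (hKi : (interior K).Nonempty) {R : ℝ} (hR0 : 0 < R)
    (hR : ∀ x ∈ K, ‖x‖ ≤ R) {y z : J → E d}
    (hyz : ∀ s : ℝ, Function.Injective fun j => y j + s • (z j - y j))
    {m : J → ℝ} (hm0 : ∀ j, 0 < m j) (hm : ∑ j, m j = ∫ _ in K, (1 : ℝ)) {ψ₀ ψ₁ : J → ℝ}
    (hb₀ : Balanced K (fun _ => 1) m y ψ₀) (hb₁ : Balanced K (fun _ => 1) m z ψ₁) :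
    ∃ c : ℝ, ∫ x in K, (pot y ψ₀ x - pot z ψ₁ x - c) ^ 2 ≤
      163920 * R ^ 2 * ∑ j, m j * ‖z j - y j‖ ^ 2 := by
  have hy : Function.Injective y := by simpa using hyz 0
  have hκ : 0 < ∫ _ in K, (1 : ℝ) := hm ▸ Finset.sum_pos (fun j _ => hm0 j) Finset.univ_nonempty
  set c := (∫ x in K, (pot y ψ₀ x - pot z ψ₁ x)) / ∫ _ in K, (1 : ℝ) with hc
  refine ⟨c, ?_⟩
  set h : E d → ℝ := fun x => pot y ψ₀ x - pot z ψ₁ x - c with hh
  have hhc : Continuous h := by fun_prop
  have hh0 : ∫ x in K, h x = 0 := by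
    rw [integral_sub (intOn hK (by fun_prop)) (intOn hK (by fun_prop))]
    have : ∫ _ in K, c = c * ∫ _ in K, (1 : ℝ) := by rw [← integral_const_mul]; simp
    rw [this, hc, div_mul_cancel₀ _ hκ.ne', sub_self]
  obtain ⟨M, hM⟩ := hK.exists_bound_of_continuousOn hhc.continuousOn
  set t₀ := 1 / (2 * (|M| + 1)) with ht₀
  have ht₀0 : 0 < t₀ := by positivity
  set t : ℕ → ℝ := fun n => t₀ * (1 / ((n : ℝ) + 1)) with ht
  have ht0 : ∀ n, 0 < t n := fun n => mul_pos ht₀0 Nat.one_div_pos_of_nat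
  have hth : ∀ n, ∀ x ∈ K, |t n * h x| ≤ 1 / 2 := fun n x hx => by
    have h1 : t n ≤ t₀ := by
      have : 1 / ((n : ℝ) + 1) ≤ 1 := by
        rw [div_le_one (by positivity)]; linarith [Nat.cast_nonneg (α := ℝ) n]
      simp only [ht]; nlinarith
    have h2 : |h x| ≤ |M| + 1 := by
      have := hM x hx; rw [Real.norm_eq_abs] at this; linarith [le_abs_self M]
    rw [abs_mul, abs_of_pos (ht0 n)]
    calc t n * |h x| ≤ t₀ * (|M| + 1) := mul_le_mul h1 h2 (abs_nonneg _) ht₀0.le
      _ = 1 / 2 := by rw [ht₀]; field_simp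
  have htl : Tendsto t atTop (𝓝 0) := by
    have := (tendsto_one_div_add_atTop_nhds_zero_nat (𝕜 := ℝ)).const_mul t₀
    rwa [mul_zero] at this
  obtain ⟨j₀⟩ := ‹Nonempty J›
  have hex : ∀ n, ∃ ψ, Balanced K (fun x => 1 + t n * h x) m y ψ ∧ ψ j₀ = 0 := fun n => by
    obtain ⟨ψ, hψ⟩ := exists_balanced hK (w := fun x => 1 + t n * h x) (by fun_prop)
      (fun x hx => by linarith [(abs_le.1 (hth n x hx)).1]) hm0 (by
        rw [hm, integral_add (intOn hK (by fun_prop)) (intOn hK (by fun_prop)),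
          integral_const_mul, hh0]
        simp) hy
    refine ⟨fun j => ψ j + -ψ j₀, fun j => ?_, by simp⟩
    rw [cell_add_const]
    exact hψ j
  choose ψ hψ hψ0 using hex
  obtain ⟨ψ', -, φ, hφ, hlim⟩ := (isCompact_Icc (a := fun j => -(R * ‖y j₀ - y j‖))
    (b := fun j => R * ‖y j - y j₀‖)).tendsto_subseq (x := ψ) (fun n => by
      constructor
      · intro j
        have := balanced_sub_le hR hm0 (hψ n) j₀ j
        rw [hψ0] at this
        show -(R * ‖y j₀ - y j‖) ≤ ψ n j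
        linarith
      · intro j
        have := balanced_sub_le hR hm0 (hψ n) j j₀
        rw [hψ0] at this
        show ψ n j ≤ R * ‖y j - y j₀‖
        linarith)
  have l1 := ((continuous_integral_pot hK hhc y).tendsto ψ').comp hlim
  have l2 := ((continuous_kf hK (w := fun _ => 1) continuous_const m y).tendsto ψ').comp hlim
  have l3 := htl.comp hφ.tendsto_atTop
  have hle : kf K (fun _ => 1) m y ψ' ≤ kf K (fun _ => 1) m y ψ₀ := by
    have a1 := l2.add (l3.mul l1)
    have a2 := (tendsto_const_nhds (x := kf K (fun _ => 1) m y ψ₀)).add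
      (l3.mul (tendsto_const_nhds (x := ∫ x in K, pot y ψ₀ x * h x)))
    rw [zero_mul, add_zero] at a1 a2
    refine le_of_tendsto_of_tendsto' a1 a2 fun n => ?_
    have := kf_min hK (w := fun x => 1 + t (φ n) * h x) (by fun_prop)
      (fun x hx => by linarith [(abs_le.1 (hth (φ n) x hx)).1]) hy (hψ (φ n)) ψ₀
    rw [kf_density hK hhc, kf_density hK hhc] at this
    exact this
  obtain ⟨c', hc'⟩ := pot_unique hK hKc hKi hy hb₀ hle
  have e1 : ∫ x in K, pot y ψ' x * h x = ∫ x in K, pot y ψ₀ x * h x := by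
    rw [setIntegral_congr_fun hK.measurableSet (g := fun x => pot y ψ₀ x * h x + c' * h x)
      (fun x hx => by simp only [hc' x hx]; ring),
      integral_add (intOn hK (by fun_prop)) (intOn hK (by fun_prop)), integral_const_mul, hh0]
    simp
  have hs : (0 : ℝ) < 2 * 2049 * R ^ 2 := by positivity
  have key : (∫ x in K, pot y ψ₀ x * h x) - ∫ x in K, pot z ψ₁ x * h x ≤
      20 * (2 * 2049 * R ^ 2) * ∑ j, m j * ‖z j - y j‖ ^ 2 +
        2049 * R ^ 2 * (∫ x in K, h x ^ 2) / (2 * 2049 * R ^ 2) := by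
    rw [← e1]
    refine le_of_tendsto' (l1.sub tendsto_const_nhds) fun n => ?_
    exact mixed_diff hK hKc hR0 hR hyz hm0 hm hhc hh0 (ht0 (φ n)) (hth (φ n)) (hψ (φ n)) hb₁ hs
  have e2 : (∫ x in K, pot y ψ₀ x * h x) - ∫ x in K, pot z ψ₁ x * h x = ∫ x in K, h x ^ 2 := by
    rw [← integral_sub (intOn hK (by fun_prop)) (intOn hK (by fun_prop)),
      setIntegral_congr_fun hK.measurableSet (g := fun x => h x ^ 2 + c * h x)
      (fun x hx => by simp only [hh]; ring),
      integral_add (intOn hK (by fun_prop)) (intOn hK (by fun_prop)), integral_const_mul, hh0]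
    simp
  have e3 : 2049 * R ^ 2 * (∫ x in K, h x ^ 2) / (2 * 2049 * R ^ 2) = (∫ x in K, h x ^ 2) / 2 := by
    field_simp
  rw [e2, e3] at key
  change ∫ x in K, h x ^ 2 ≤ _
  linarith

end Crest.Agent.OT
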