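import Mathlib
import Crest.Agent.OT.Cells

/-!
# Reverse Poincaré inequality for differences of convex functions
-/

set_option autoImplicit false

open MeasureTheory Set Filter Topology
open scoped ENNReal RealInnerProductSpace

namespace Crest.Agent.OT

variable {d : ℕ}

theorem telescoping_bound {K : Set (E d)} (hK : MeasurableSet K) {R : ℝ} (hR : ∀ x ∈ K, ‖x‖ ≤ R)
    {D : E d → ℝ≥0∞} (hD : Measurable D) {v : E d} {N : ℕ} (hv : N * ‖v‖ ≤ 1) {M : ℝ≥0∞}
    (hM : ∀ x, ∑ k ∈ Finset.range N, D (x + (k : ℝ) • v) ≤ M) :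
    N * ∫⁻ x in K, D x ≤ M * volume (Metric.closedBall (0 : E d) (R + 1)) := by
  set B := Metric.closedBall (0 : E d) (R + 1)
  have hB : MeasurableSet B := Metric.isClosed_closedBall.measurableSet
  have h1 : ∀ k ∈ Finset.range N, ∫⁻ x in K, D x ≤ ∫⁻ x in B, D (x + (k : ℝ) • v) := by
    intro k hk
    rw [← lintegral_indicator hK, ← lintegral_indicator hB,
      ← lintegral_add_right_eq_self _ ((k : ℝ) • v)]
    refine lintegral_mono fun x => ?_
    by_cases hx : x + (k : ℝ) • v ∈ K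
    · have hxB : x ∈ B := by
        rw [mem_closedBall_zero_iff]
        have h2 : ‖(k : ℝ) • v‖ ≤ 1 := by
          rw [norm_smul, Real.norm_natCast]
          refine le_trans ?_ hv
          gcongr
          exact (Finset.mem_range.1 hk).le
        have h3 : ‖x‖ ≤ ‖x + (k : ℝ) • v‖ + ‖(k : ℝ) • v‖ := by
          simpa using norm_sub_le (x + (k : ℝ) • v) ((k : ℝ) • v)
        linarith [hR _ hx]
      rw [indicator_of_mem hx, indicator_of_mem hxB]
    · rw [indicator_of_notMem hx]; exact bot_le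
  calc (N : ℝ≥0∞) * ∫⁻ x in K, D x = ∑ _k ∈ Finset.range N, ∫⁻ x in K, D x := by simp
    _ ≤ ∑ k ∈ Finset.range N, ∫⁻ x in B, D (x + (k : ℝ) • v) := Finset.sum_le_sum h1
    _ = ∫⁻ x in B, ∑ k ∈ Finset.range N, D (x + (k : ℝ) • v) :=
        (lintegral_finsetSum _ fun k _ => hD.comp (measurable_add_const _)).symm
    _ ≤ ∫⁻ _ in B, M := lintegral_mono hM
    _ = M * volume B := by simp

theorem sum_indicator_exit_le {K : Set (E d)} (hKc : Convex ℝ K) (v x : E d) (N : ℕ) :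
    ∑ k ∈ Finset.range N, ({x | x ∈ K ∧ x + v ∉ K}.indicator (fun _ => (1 : ℝ)) (x + (k : ℝ) • v))
      ≤ 1 := by
  classical
  have key : ∀ k l : ℕ, k < l → x + (k : ℝ) • v ∈ K → x + (l : ℝ) • v ∈ K →
      x + (k : ℝ) • v + v ∈ K := by
    intro k l hkl hk hl
    have hkl' : (1 : ℝ) ≤ l - k := by
      have : (k : ℝ) + 1 ≤ l := by exact_mod_cast hkl
      linarith
    have h0 : (0 : ℝ) < l - k := by linarith
    have := hKc hk hl (a := 1 - 1 / (l - k)) (b := 1 / (l - k))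
      (by rw [sub_nonneg, div_le_one h0]; exact hkl') (by positivity) (by ring)
    convert this using 1
    rw [smul_add, smul_add, smul_smul, smul_smul, add_add_add_comm, ← add_smul, ← add_smul,
      add_assoc]
    congr 1
    · simp
    · nth_rewrite 2 [← one_smul ℝ v]
      rw [← add_smul]
      congr 1
      field_simp
      ring
  simp only [indicator_apply, mem_ofPred_eq]
  rw [Finset.sum_boole]
  have : ((Finset.range N).filter fun k : ℕ =>
      x + (k : ℝ) • v ∈ K ∧ x + (k : ℝ) • v + v ∉ K).card ≤ 1 := by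
    rw [Finset.card_le_one]
    intro k hk l hl
    rw [Finset.mem_filter] at hk hl
    rcases lt_trichotomy k l with h | h | h
    · exact absurd (key k l h hk.2.1 hl.2.1) hk.2.2
    · exact h
    · exact absurd (key l k h hl.2.1 hk.2.1) hl.2.2
  exact_mod_cast this

theorem rev_poincare_dir {K : Set (E d)} (hK : IsCompact K) (hKc : Convex ℝ K) {R : ℝ}
    (hR : ∀ x ∈ K, ‖x‖ ≤ R) {φ₀ φ₁ : E d → ℝ} (hφ₀ : Continuous φ₀) (hφ₁ : Continuous φ₁)
    {T₀ T₁ : E d → E d} (hT₀ : Measurable T₀) (hT₁ : Measurable T₁) {L : ℝ}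
    (hL₀ : ∀ x, ‖T₀ x‖ ≤ L) (hL₁ : ∀ x, ‖T₁ x‖ ≤ L)
    (hs₀ : ∀ x x', φ₀ x + ⟪x' - x, T₀ x⟫ ≤ φ₀ x') (hs₁ : ∀ x x', φ₁ x + ⟪x' - x, T₁ x⟫ ≤ φ₁ x')
    (c : ℝ) {N : ℕ} (hN : 0 < N) {e : E d} (he : ‖e‖ ≤ 1) :
    ∫⁻ x in K, ENNReal.ofReal (⟪e, T₀ x - T₁ x⟫ ^ 2) ≤
      ENNReal.ofReal (8 * N ^ 2 * (∫ x in K, (φ₀ x - φ₁ x - c) ^ 2) +
        36 * L ^ 2 * (volume (Metric.closedBall (0 : E d) (R + 1))).toReal / N) := by
  have hN' : (0 : ℝ) < N := by exact_mod_cast hN
  have hL : 0 ≤ L := (norm_nonneg _).trans (hL₀ 0)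
  set v : E d := (1 / (N : ℝ)) • e with hv
  set f : E d → ℝ := fun x => φ₀ x - φ₁ x - c with hf
  have hfc : Continuous f := by fun_prop
  set F : E d → ℝ≥0∞ := fun x => ENNReal.ofReal (f x ^ 2) with hF
  have hFm : Measurable F := (hfc.pow 2).measurable.ennreal_ofReal
  set θ : E d → ℝ := fun x => ⟪e, T₀ x⟫ + ⟪e, T₁ x⟫ with hθ
  have hθm : Measurable θ := (measurable_const.inner hT₀).add (measurable_const.inner hT₁)
  have hb₀ : ∀ x, |⟪e, T₀ x⟫| ≤ L := fun x => (abs_real_inner_le_norm _ _).trans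
    (by nlinarith [hL₀ x, norm_nonneg e, norm_nonneg (T₀ x)])
  have hb₁ : ∀ x, |⟪e, T₁ x⟫| ≤ L := fun x => (abs_real_inner_le_norm _ _).trans
    (by nlinarith [hL₁ x, norm_nonneg e, norm_nonneg (T₁ x)])
  have hq : ∀ {φ : E d → ℝ} {T : E d → E d}, (∀ x x', φ x + ⟪x' - x, T x⟫ ≤ φ x') → ∀ x,
      ⟪e, T x⟫ ≤ N * (φ (x + v) - φ x) ∧ N * (φ (x + v) - φ x) ≤ ⟪e, T (x + v)⟫ := by
    intro φ T hs x
    have h1 := hs x (x + v)
    have h2 := hs (x + v) x
    rw [add_sub_cancel_left, hv, inner_smul_left] at h1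
    rw [sub_add_cancel_left, inner_neg_left] at h2
    nth_rewrite 2 [hv] at h2
    rw [inner_smul_left] at h2
    simp only [conj_trivial] at h1 h2
    rw [← hv] at h1
    have a1 := mul_le_mul_of_nonneg_left h1 hN'.le
    have a2 := mul_le_mul_of_nonneg_left h2 hN'.le
    have e1 : ∀ u : ℝ, N * (1 / (N : ℝ) * u) = u := fun u => by field_simp
    rw [mul_add, e1] at a1
    rw [mul_add, mul_neg, e1] at a2
    constructor <;> linarith
  set S : Set (E d) := {x | x ∈ K ∧ x + v ∉ K} with hS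
  have hSm : MeasurableSet S :=
    hK.measurableSet.inter (hK.measurableSet.preimage (measurable_add_const v)).compl
  set Dr : E d → ℝ := fun x => 8 * L * (θ (x + v) - θ x) + 4 * L ^ 2 * S.indicator (fun _ => 1) x
    with hDr
  have hθmono : ∀ x, 0 ≤ θ (x + v) - θ x := fun x => by
    have := hq hs₀ x; have := hq hs₁ x; simp only [hθ]; linarith
  have hDr0 : ∀ x, 0 ≤ Dr x := fun x =>
    add_nonneg (mul_nonneg (by positivity) (hθmono x))
      (mul_nonneg (by positivity) (indicator_nonneg (fun _ _ => zero_le_one) x))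
  have hDrm : Measurable Dr :=
    (((hθm.comp (measurable_add_const v)).sub hθm).const_mul _).add
      ((measurable_const.indicator hSm).const_mul _)
  have hD := telescoping_bound hK.measurableSet hR (D := fun x => ENNReal.ofReal (Dr x))
    hDrm.ennreal_ofReal (v := v) (N := N) (by
      rw [hv, norm_smul, Real.norm_of_nonneg (by positivity), ← mul_assoc, mul_one_div_cancel hN'.ne',
        one_mul]
      exact he) (M := ENNReal.ofReal (36 * L ^ 2)) (fun x => by
      rw [← ENNReal.ofReal_sum_of_nonneg fun k _ => hDr0 _]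
      apply ENNReal.ofReal_le_ofReal
      simp only [hDr]
      rw [Finset.sum_add_distrib, ← Finset.mul_sum, ← Finset.mul_sum]
      have h1 := sum_indicator_exit_le hKc v x N
      have h2 : ∑ k ∈ Finset.range N, (θ (x + (k : ℝ) • v + v) - θ (x + (k : ℝ) • v)) =
          θ (x + (N : ℝ) • v) - θ (x + ((0 : ℕ) : ℝ) • v) := by
        rw [← Finset.sum_range_sub (fun k : ℕ => θ (x + (k : ℝ) • v))]
        refine Finset.sum_congr rfl fun k _ => ?_
        push_cast
        rw [add_smul, one_smul, add_assoc]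
      rw [h2]
      have h3 : θ (x + (N : ℝ) • v) - θ (x + ((0 : ℕ) : ℝ) • v) ≤ 4 * L := by
        simp only [hθ]
        linarith [abs_le.1 (hb₀ (x + (N : ℝ) • v)), abs_le.1 (hb₁ (x + (N : ℝ) • v)),
          abs_le.1 (hb₀ (x + ((0 : ℕ) : ℝ) • v)), abs_le.1 (hb₁ (x + ((0 : ℕ) : ℝ) • v))]
      have h4 := mul_le_mul_of_nonneg_left h3 (show 0 ≤ 8 * L by positivity)
      have h5 := mul_le_mul_of_nonneg_left h1 (show 0 ≤ 4 * L ^ 2 by positivity)
      nlinarith)
  have hpt : ∀ x ∈ K, ENNReal.ofReal (⟪e, T₀ x - T₁ x⟫ ^ 2) ≤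
      ENNReal.ofReal (4 * N ^ 2) * (K.indicator F (x + v) + F x) + ENNReal.ofReal (Dr x) := by
    intro x hx
    rw [inner_sub_right]
    by_cases hxv : x + v ∈ K
    · rw [indicator_of_mem hxv]
      simp only [hF]
      rw [← ENNReal.ofReal_add (sq_nonneg _) (sq_nonneg _), ← ENNReal.ofReal_mul (by positivity),
        ← ENNReal.ofReal_add (by positivity) (hDr0 x)]
      apply ENNReal.ofReal_le_ofReal
      have h0 := hq hs₀ x
      have h1 := hq hs₁ x
      set a := ⟪e, T₀ x⟫ - ⟪e, T₁ x⟫ with ha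
      set p := N * (f (x + v) - f x) with hp
      set δ := θ (x + v) - θ x with hδ
      have hδ0 : 0 ≤ δ := hθmono x
      have hδ4 : δ ≤ 4 * L := by
        simp only [hδ, hθ]
        linarith [abs_le.1 (hb₀ (x + v)), abs_le.1 (hb₁ (x + v)), abs_le.1 (hb₀ x),
          abs_le.1 (hb₁ x)]
      have hap : |a - p| ≤ δ := by
        rw [abs_le]
        simp only [ha, hp, hδ, hθ, hf]
        constructor <;> linarith [h0.1, h0.2, h1.1, h1.2]
      have h2 : (a - p) ^ 2 ≤ 4 * L * δ := by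
        have := sq_le_sq' (abs_le.1 hap).1 (abs_le.1 hap).2
        nlinarith
      have h3 : p ^ 2 ≤ 2 * N ^ 2 * (f (x + v) ^ 2 + f x ^ 2) := by
        rw [hp, mul_pow]
        have : (f (x + v) - f x) ^ 2 ≤ 2 * (f (x + v) ^ 2 + f x ^ 2) := by
          nlinarith [sq_nonneg (f (x + v) + f x)]
        nlinarith [sq_nonneg (N : ℝ)]
      have h4 : 8 * L * δ ≤ Dr x := by
        simp only [hDr]
        exact le_add_of_nonneg_right
          (mul_nonneg (by positivity) (indicator_nonneg (fun _ _ => zero_le_one) x))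
      nlinarith [sq_nonneg (a - 2 * p)]
    · refine le_trans ?_ le_add_self
      apply ENNReal.ofReal_le_ofReal
      have hxS : x ∈ S := ⟨hx, hxv⟩
      simp only [hDr, indicator_of_mem hxS, mul_one]
      have h1 : (⟪e, T₀ x⟫ - ⟪e, T₁ x⟫) ^ 2 ≤ (2 * L) ^ 2 := by
        apply sq_le_sq' <;> linarith [abs_le.1 (hb₀ x), abs_le.1 (hb₁ x)]
      have := mul_nonneg (show 0 ≤ 8 * L by positivity) (hθmono x)
      nlinarith
  have hI : ∫⁻ x in K, F x = ENNReal.ofReal (∫ x in K, f x ^ 2) :=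
    (ofReal_integral_eq_lintegral_ofReal (intOn hK (by fun_prop))
      (Eventually.of_forall fun x => sq_nonneg _)).symm
  have hI2 : ∫⁻ x in K, K.indicator F (x + v) ≤ ∫⁻ x in K, F x := by
    refine (setLIntegral_le_lintegral _ _).trans (le_of_eq ?_)
    rw [lintegral_add_right_eq_self (K.indicator F) v, lintegral_indicator hK.measurableSet]
  have hV : volume (Metric.closedBall (0 : E d) (R + 1)) ≠ ⊤ := measure_closedBall_lt_top.ne
  have hD2 : ∫⁻ x in K, ENNReal.ofReal (Dr x) ≤ ENNReal.ofReal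
      (36 * L ^ 2 * (volume (Metric.closedBall (0 : E d) (R + 1))).toReal / N) := by
    rw [ENNReal.ofReal_div_of_pos hN', ENNReal.ofReal_mul (by positivity),
      ENNReal.ofReal_toReal hV, ENNReal.ofReal_natCast,
      ENNReal.le_div_iff_mul_le (Or.inl (by exact_mod_cast hN.ne')) (Or.inl (by simp)), mul_comm]
    exact hD
  have hQ : 0 ≤ ∫ x in K, f x ^ 2 := integral_nonneg fun x => sq_nonneg _
  have hm1 : Measurable fun x => K.indicator F (x + v) :=
    (hFm.indicator hK.measurableSet).comp (measurable_add_const v)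
  calc _ ≤ ∫⁻ x in K, (ENNReal.ofReal (4 * N ^ 2) * (K.indicator F (x + v) + F x) +
        ENNReal.ofReal (Dr x)) := setLIntegral_mono' hK.measurableSet hpt
    _ = ENNReal.ofReal (4 * N ^ 2) * ((∫⁻ x in K, K.indicator F (x + v)) + ∫⁻ x in K, F x) +
        ∫⁻ x in K, ENNReal.ofReal (Dr x) := by
        rw [lintegral_add_right _ hDrm.ennreal_ofReal, lintegral_const_mul' _ _ ENNReal.ofReal_ne_top,
          lintegral_add_left hm1]
    _ ≤ ENNReal.ofReal (4 * N ^ 2) * ((∫⁻ x in K, F x) + ∫⁻ x in K, F x) + ENNReal.ofReal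
      (36 * L ^ 2 * (volume (Metric.closedBall (0 : E d) (R + 1))).toReal / N) := by
        gcongr
    _ = _ := by
        rw [hI, ← ENNReal.ofReal_add hQ hQ, ← ENNReal.ofReal_mul (by positivity),
          ← ENNReal.ofReal_add (by positivity) (by positivity)]
        congr 1
        ring

theorem enorm_sq_eq_sum (u : E d) :
    ‖u‖ₑ ^ 2 = ∑ i, ENNReal.ofReal (⟪EuclideanSpace.single i (1 : ℝ), u⟫ ^ 2) := by
  rw [← ENNReal.ofReal_sum_of_nonneg fun i _ => sq_nonneg _, ← ofReal_norm,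
    ← ENNReal.ofReal_pow (norm_nonneg _), EuclideanSpace.real_norm_sq_eq]
  simp [EuclideanSpace.inner_single_left]

theorem rev_poincare {K : Set (E d)} (hK : IsCompact K) (hKc : Convex ℝ K) {R : ℝ}
    (hR : ∀ x ∈ K, ‖x‖ ≤ R) {φ₀ φ₁ : E d → ℝ} (hφ₀ : Continuous φ₀) (hφ₁ : Continuous φ₁)
    {T₀ T₁ : E d → E d} (hT₀ : Measurable T₀) (hT₁ : Measurable T₁) {L : ℝ}
    (hL₀ : ∀ x, ‖T₀ x‖ ≤ L) (hL₁ : ∀ x, ‖T₁ x‖ ≤ L)
    (hs₀ : ∀ x x', φ₀ x + ⟪x' - x, T₀ x⟫ ≤ φ₀ x') (hs₁ : ∀ x x', φ₁ x + ⟪x' - x, T₁ x⟫ ≤ φ₁ x')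
    (c : ℝ) {N : ℕ} (hN : 0 < N) :
    ∫⁻ x in K, ‖T₀ x - T₁ x‖ₑ ^ 2 ≤
      ENNReal.ofReal (d * (8 * N ^ 2 * (∫ x in K, (φ₀ x - φ₁ x - c) ^ 2) +
        36 * L ^ 2 * (volume (Metric.closedBall (0 : E d) (R + 1))).toReal / N)) := by
  simp only [enorm_sq_eq_sum]
  rw [lintegral_finsetSum _ fun i _ =>
    ((measurable_const.inner (hT₀.fun_sub hT₁)).pow_const 2).ennreal_ofReal]
  refine (Finset.sum_le_sum fun i _ => rev_poincare_dir hK hKc hR hφ₀ hφ₁ hT₀ hT₁ hL₀ hL₁ hs₀ hs₁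
    c hN (e := EuclideanSpace.single i 1) (by simp)).trans (le_of_eq ?_)
  rw [Finset.sum_const, Finset.card_univ, Fintype.card_fin, nsmul_eq_mul,
    ENNReal.ofReal_mul (Nat.cast_nonneg d), ENNReal.ofReal_natCast]

end Crest.Agent.OT
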