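import Mathlib
import Crest.Prelude.Def_QuadraticTransport
import Crest.Agent.OT.Potential
import Crest.Agent.OT.RevPoincare
import Crest.Agent.OT.Ident
import Crest.Agent.OT.Discretize

/-!
# Stability of optimal transport maps with exponent one third
-/

set_option autoImplicit false

open MeasureTheory Set Filter Topology
open scoped ENNReal RealInnerProductSpace NNReal
open Crest.AnalysisR.OT

namespace Crest.Agent.OT

variable {d : ℕ}

theorem volume_pos_of_interior {K : Set (E d)} (hKi : (interior K).Nonempty) : volume K ≠ 0 :=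
  (Measure.measure_pos_of_nonempty_interior volume hKi).ne'

theorem isProb_uniform {K : Set (E d)} (hK : IsCompact K) (hKi : (interior K).Nonempty) :
    IsProbabilityMeasure (uniformProbOn K) := by
  constructor
  simp only [uniformProbOn, Measure.smul_apply, Measure.restrict_apply MeasurableSet.univ,
    univ_inter, smul_eq_mul]
  exact ENNReal.inv_mul_cancel (volume_pos_of_interior hKi) hK.measure_lt_top.ne

theorem uniform_ac (K : Set (E d)) : uniformProbOn K ≪ volume.restrict K :=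
  Measure.smul_absolutelyContinuous

theorem uniform_ae_interior {K : Set (E d)} (hK : IsCompact K) (hKc : Convex ℝ K) :
    ∀ᵐ x ∂(uniformProbOn K), x ∈ interior K := by
  apply (uniform_ac K).ae_le
  have h1 : ∀ᵐ x : E d, x ∉ frontier K :=
    measure_eq_zero_iff_ae_notMem.1 (hKc.addHaar_frontier volume)
  change ∀ᵐ x ∂(volume.restrict K), x ∈ interior K
  rw [ae_restrict_iff' hK.measurableSet]
  filter_upwards [h1] with x hx hxK
  by_contra h
  exact hx ⟨subset_closure hxK, h⟩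

theorem uniform_ae_of_ae {K : Set (E d)} {p : E d → Prop} (h : ∀ᵐ x : E d, p x) :
    ∀ᵐ x ∂(uniformProbOn K), p x :=
  (uniform_ac K).ae_le (ae_restrict_of_ae h)

theorem map_cell_eq {K : Set (E d)} (hK : IsCompact K) (hKi : (interior K).Nonempty) {n : ℕ}
    [Nonempty (Fin n)] {y : Fin n → E d} (hy : Function.Injective y) {ψ : Fin n → ℝ}
    {τ : Measure (Fin n)} [IsFiniteMeasure τ]
    (hb : Balanced K (fun _ => 1) (fun j => (volume K).toReal * (τ {j}).toReal) y ψ)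
    {ι : E d → Fin n} (hι : Measurable ι) (hι' : ∀ x, x ∈ cell y ψ (ι x)) :
    (uniformProbOn K).map ι = τ := by
  apply Measure.ext_of_singleton
  intro j
  rw [Measure.map_apply hι (measurableSet_singleton j)]
  simp only [uniformProbOn, Measure.smul_apply, smul_eq_mul]
  rw [Measure.restrict_apply (hι (measurableSet_singleton j))]
  have h1 : volume (ι ⁻¹' {j} ∩ K) = volume (K ∩ cell y ψ j) := by
    apply measure_congr
    have : ∀ᵐ x : E d, ∀ k, k ≠ j → x ∉ cell y ψ j ∩ cell y ψ k := by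
      rw [ae_all_iff]
      intro k
      by_cases hk : k = j
      · exact Eventually.of_forall fun x h => absurd hk h
      · filter_upwards [measure_eq_zero_iff_ae_notMem.1 (volume_cell_inter hy ψ (Ne.symm hk))]
          with x hx _ using hx
    filter_upwards [this] with x hx
    apply propext
    constructor
    · rintro ⟨h1, h2⟩
      exact ⟨h2, (show ι x = j from h1) ▸ hι' x⟩
    · rintro ⟨h1, h2⟩
      refine ⟨?_, h1⟩
      by_contra h
      exact hx (ι x) h ⟨h2, hι' x⟩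
  have h2 := hb j
  simp only [integral_const, MeasurableSet.univ, measureReal_restrict_apply, univ_inter,
    smul_eq_mul, mul_one] at h2
  have h3 : volume (K ∩ cell y ψ j) = volume K * τ {j} := by
    rw [← ENNReal.toReal_eq_toReal_iff' (isCompact_inter_cell hK y ψ j).measure_lt_top.ne
      (ENNReal.mul_ne_top hK.measure_lt_top.ne (measure_ne_top _ _)), ENNReal.toReal_mul]
    exact h2
  rw [h1, h3, ← mul_assoc, ENNReal.inv_mul_cancel (volume_pos_of_interior hKi)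
    hK.measure_lt_top.ne, one_mul]

theorem discrete_step (hd : 2 ≤ d) {K : Set (E d)} (hK : IsCompact K) (hKc : Convex ℝ K)
    (hKi : (interior K).Nonempty) {R : ℝ} (hR0 : 0 < R) (hR : ∀ x ∈ K, ‖x‖ ≤ R)
    (π : Measure (E d × E d)) [IsProbabilityMeasure π]
    {L : ℝ} (hL : ∀ᵐ p ∂π, ‖p.1‖ ≤ L ∧ ‖p.2‖ ≤ L) {η : ℝ} (hη : 0 < η) (hη1 : η ≤ 1) :
    ∃ (φ₀ φ₁ : E d → ℝ) (T₀ T₁ : E d → E d) (Q₀ Q₁ : E d × E d → E d),
      LipschitzWith (L + 1).toNNReal φ₀ ∧ LipschitzWith (L + 1).toNNReal φ₁ ∧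
      φ₀ 0 = 0 ∧ φ₁ 0 = 0 ∧ Measurable T₀ ∧ Measurable T₁ ∧
      (∀ x, ‖T₀ x‖ ≤ L + 1) ∧ (∀ x, ‖T₁ x‖ ≤ L + 1) ∧
      (∀ x x', φ₀ x + ⟪x' - x, T₀ x⟫ ≤ φ₀ x') ∧ (∀ x x', φ₁ x + ⟪x' - x, T₁ x⟫ ≤ φ₁ x') ∧
      Measurable Q₀ ∧ Measurable Q₁ ∧
      (uniformProbOn K).map T₀ = π.map Q₀ ∧ (uniformProbOn K).map T₁ = π.map Q₁ ∧
      (∀ᵐ p ∂π, ‖p.1 - Q₀ p‖ ≤ η ∧ ‖p.2 - Q₁ p‖ ≤ η) ∧
      ∀ N : ℕ, 0 < N → ∫⁻ x in K, ‖T₀ x - T₁ x‖ₑ ^ 2 ≤
        ENNReal.ofReal (d * (8 * N ^ 2 * (163920 * R ^ 2 * ((volume K).toReal *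
          (2 * (∫ p, ‖p.1 - p.2‖ ^ 2 ∂π) + 8 * η ^ 2))) +
          36 * (L + 1) ^ 2 * (volume (Metric.closedBall (0 : E d) (R + 1))).toReal / N)) := by
  obtain ⟨n, hn, y, z, idx, hidx, hQ, hpos, hinj⟩ := exists_discretization hd π hL hη
  have hy : Function.Injective y := by simpa using hinj 0
  have hz : Function.Injective z := by simpa using hinj 1
  set τ := π.map idx with hτ
  have : IsProbabilityMeasure τ := Measure.isProbabilityMeasure_map hidx.aemeasurable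
  set κ := (volume K).toReal with hκ
  have hκ0 : 0 < κ := ENNReal.toReal_pos (volume_pos_of_interior hKi) hK.measure_lt_top.ne
  set m : Fin n → ℝ := fun j => κ * (τ {j}).toReal with hm
  have hm0 : ∀ j, 0 < m j := fun j => by
    refine mul_pos hκ0 (ENNReal.toReal_pos ?_ (measure_ne_top _ _))
    rw [hτ, Measure.map_apply hidx (measurableSet_singleton j)]
    exact hpos j
  have hint : ∀ F : Fin n → ℝ, ∑ j, m j * F j = κ * ∫ p, F (idx p) ∂π := fun F => by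
    rw [← integral_map hidx.aemeasurable (measurable_of_finite F).aestronglyMeasurable,
      integral_fintype Integrable.of_finite, Finset.mul_sum]
    refine Finset.sum_congr rfl fun j _ => ?_
    simp only [hm, smul_eq_mul, mul_assoc]
    rfl
  have hms : ∑ j, m j = ∫ _ in K, (1 : ℝ) := by
    have := hint fun _ => 1
    simp only [mul_one, integral_const, probReal_univ, smul_eq_mul] at this
    rw [this]
    simp [hκ, Measure.real]
  have hyz : ∀ j, ‖y j‖ ≤ L + 1 ∧ ‖z j‖ ≤ L + 1 := fun j => by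
    obtain ⟨p, hp, h1, h2⟩ := (Measure.exists_mem_of_measure_ne_zero_of_ae (hpos j)
      (ae_restrict_of_ae (hL.and hQ)))
    rw [show idx p = j from hp] at h2
    have a1 := norm_sub_norm_le (y j) p.1
    have a2 := norm_sub_norm_le (z j) p.2
    rw [norm_sub_rev] at a1 a2
    constructor <;> linarith [h1.1, h1.2, h2.1, h2.2]
  obtain ⟨ψ₀, hb₀⟩ := exists_balanced hK (w := fun _ => 1) continuous_const
    (fun _ _ => zero_le_one) hm0 hms hy
  obtain ⟨ψ₁, hb₁⟩ := exists_balanced hK (w := fun _ => 1) continuous_const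
    (fun _ _ => zero_le_one) hm0 hms hz
  obtain ⟨ι₀, hι₀m, hι₀⟩ := exists_measurable_selection (cell y ψ₀)
    fun j => (isClosed_cell y ψ₀ j).measurableSet
  obtain ⟨ι₁, hι₁m, hι₁⟩ := exists_measurable_selection (cell z ψ₁)
    fun j => (isClosed_cell z ψ₁ j).measurableSet
  replace hι₀m : Measurable ι₀ := measurable_to_countable' hι₀m
  replace hι₁m : Measurable ι₁ := measurable_to_countable' hι₁m
  replace hι₀ : ∀ x, x ∈ cell y ψ₀ (ι₀ x) := fun x => hι₀ x (exists_mem_cell _ _ _)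
  replace hι₁ : ∀ x, x ∈ cell z ψ₁ (ι₁ x) := fun x => hι₁ x (exists_mem_cell _ _ _)
  have hym : Measurable y := measurable_of_finite y
  have hzm : Measurable z := measurable_of_finite z
  have hlip : ∀ {φ : E d → ℝ} {T : E d → E d}, (∀ x, ‖T x‖ ≤ L + 1) →
      (∀ x x', φ x + ⟪x' - x, T x⟫ ≤ φ x') → LipschitzWith (L + 1).toNNReal φ := by
    intro φ T hT hs
    refine LipschitzWith.of_le_add_mul' _ fun x x' => ?_
    have h1 := hs x x'
    have h2 := abs_real_inner_le_norm (x' - x) (T x)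
    have h3 := mul_le_mul_of_nonneg_left (hT x) (norm_nonneg (x' - x))
    rw [dist_comm, dist_eq_norm]
    linarith [neg_abs_le ⟪x' - x, T x⟫]
  have s₀ : ∀ x x', (pot y ψ₀ x - pot y ψ₀ 0) + ⟪x' - x, y (ι₀ x)⟫ ≤ pot y ψ₀ x' - pot y ψ₀ 0 :=
    fun x x' => by linarith [pot_subgrad (hι₀ x) x']
  have s₁ : ∀ x x', (pot z ψ₁ x - pot z ψ₁ 0) + ⟪x' - x, z (ι₁ x)⟫ ≤ pot z ψ₁ x' - pot z ψ₁ 0 :=
    fun x x' => by linarith [pot_subgrad (hι₁ x) x']
  refine ⟨fun x => pot y ψ₀ x - pot y ψ₀ 0, fun x => pot z ψ₁ x - pot z ψ₁ 0, y ∘ ι₀, z ∘ ι₁,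
    y ∘ idx, z ∘ idx, hlip (fun x => (hyz _).1) s₀, hlip (fun x => (hyz _).2) s₁, sub_self _,
    sub_self _, hym.comp hι₀m, hzm.comp hι₁m, fun x => (hyz _).1, fun x => (hyz _).2, s₀, s₁,
    hym.comp hidx, hzm.comp hidx, ?_, ?_, hQ, fun N hN => ?_⟩
  · rw [← Measure.map_map hym hι₀m, ← Measure.map_map hym hidx,
      map_cell_eq hK hKi hy hb₀ hι₀m hι₀]
  · rw [← Measure.map_map hzm hι₁m, ← Measure.map_map hzm hidx,
      map_cell_eq hK hKi hz hb₁ hι₁m hι₁]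
  obtain ⟨c, hc⟩ := pot_stab hK hKc hKi hR0 hR hinj hm0 hms hb₀ hb₁
  refine (rev_poincare hK hKc hR (continuous_pot y ψ₀) (continuous_pot z ψ₁) (hym.comp hι₀m)
    (hzm.comp hι₁m) (fun x => (hyz _).1) (fun x => (hyz _).2) (fun x x' => pot_subgrad (hι₀ x) x')
    (fun x x' => pot_subgrad (hι₁ x) x') c hN).trans (ENNReal.ofReal_le_ofReal ?_)
  gcongr
  refine hc.trans ?_
  gcongr
  rw [hint fun j => ‖z j - y j‖ ^ 2]
  gcongr
  have i1 : Integrable (fun p : E d × E d => ‖p.1 - p.2‖ ^ 2) π := by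
    refine Integrable.of_bound (Continuous.aestronglyMeasurable (by fun_prop)) ((L + L) ^ 2) ?_
    filter_upwards [hL] with p hp
    rw [Real.norm_of_nonneg (sq_nonneg _)]
    gcongr
    linarith [norm_sub_le p.1 p.2, hp.1, hp.2]
  have e : 2 * (∫ p, ‖p.1 - p.2‖ ^ 2 ∂π) + 8 * η ^ 2 = ∫ p, (2 * ‖p.1 - p.2‖ ^ 2 + 8 * η ^ 2) ∂π := by
    rw [integral_add (i1.const_mul 2) (integrable_const _), integral_const_mul]
    simp
  rw [e]
  refine integral_mono_of_nonneg (Eventually.of_forall fun p => sq_nonneg _)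
    ((i1.const_mul 2).add (integrable_const _)) ?_
  filter_upwards [hQ] with p hp
  have h1 : ‖z (idx p) - y (idx p)‖ ≤ ‖p.1 - p.2‖ + 2 * η := by
    have : z (idx p) - y (idx p) = (p.1 - y (idx p)) - (p.2 - z (idx p)) - (p.1 - p.2) := by abel
    rw [this]
    linarith [norm_sub_le ((p.1 - y (idx p)) - (p.2 - z (idx p))) (p.1 - p.2),
      norm_sub_le (p.1 - y (idx p)) (p.2 - z (idx p)), hp.1, hp.2]
  have h2 : ‖z (idx p) - y (idx p)‖ ^ 2 ≤ (‖p.1 - p.2‖ + 2 * η) ^ 2 := by gcongr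
  nlinarith [sq_nonneg (‖p.1 - p.2‖ - 2 * η)]

theorem limit_step (hd : 2 ≤ d) {K : Set (E d)} (hK : IsCompact K) (hKc : Convex ℝ K)
    (hKi : (interior K).Nonempty) {R : ℝ} (hR0 : 0 < R) (hR : ∀ x ∈ K, ‖x‖ ≤ R)
    (π : Measure (E d × E d)) [IsProbabilityMeasure π]
    {L : ℝ} (hL : ∀ᵐ p ∂π, ‖p.1‖ ≤ L ∧ ‖p.2‖ ≤ L) {T₀ T₁ : E d → E d}
    (h₀ : IsOptimalMap (uniformProbOn K) (π.map Prod.fst) T₀)
    (h₁ : IsOptimalMap (uniformProbOn K) (π.map Prod.snd) T₁) {N : ℕ} (hN : 0 < N) :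
    ∫⁻ x, ‖T₀ x - T₁ x‖ₑ ^ 2 ∂(uniformProbOn K) ≤ (volume K)⁻¹ *
        ENNReal.ofReal (d * (8 * N ^ 2 * (163920 * R ^ 2 * ((volume K).toReal *
          (2 * (∫ p, ‖p.1 - p.2‖ ^ 2 ∂π)))) +
          36 * (L + 1) ^ 2 * (volume (Metric.closedBall (0 : E d) (R + 1))).toReal / N)) := by
  have := isProb_uniform hK hKi
  set ρ := uniformProbOn K with hρ
  have hη : ∀ n : ℕ, (0 : ℝ) < 1 / ((n : ℝ) + 1) := fun n => Nat.one_div_pos_of_nat
  have hη1 : ∀ n : ℕ, 1 / ((n : ℝ) + 1) ≤ 1 := fun n => by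
    rw [div_le_one (by positivity)]; linarith [Nat.cast_nonneg (α := ℝ) n]
  choose φ₀ φ₁ S₀ S₁ Q₀ Q₁ l₀ l₁ z₀ z₁ m₀ m₁ b₀ b₁ s₀ s₁ mQ₀ mQ₁ e₀ e₁ hQ hest using
    fun n : ℕ => discrete_step hd hK hKc hKi hR0 hR π hL (hη n) (hη1 n)
  obtain ⟨σ, hσ, ψ₀, hψ₀, c₀⟩ := exists_subseq_lim φ₀ l₀ z₀
  obtain ⟨σ', hσ', ψ₁, hψ₁, c₁⟩ := exists_subseq_lim (fun n => φ₁ (σ n)) (fun n => l₁ _)
    (fun n => z₁ _)
  set a : ℕ → ℕ := fun n => σ (σ' n) with ha
  have hat : Tendsto a atTop atTop := hσ.tendsto_atTop.comp hσ'.tendsto_atTop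
  replace c₀ : ∀ x, Tendsto (fun n => φ₀ (a n) x) atTop (𝓝 (ψ₀ x)) :=
    fun x => (c₀ x).comp hσ'.tendsto_atTop
  have hηl : Tendsto (fun n : ℕ => 1 / ((a n : ℝ) + 1)) atTop (𝓝 0) :=
    (tendsto_one_div_add_atTop_nhds_zero_nat (𝕜 := ℝ)).comp hat
  have hQ' : ∀ᵐ p ∂π, ∀ n : ℕ, ‖p.1 - Q₀ n p‖ ≤ 1 / ((n : ℝ) + 1) ∧
      ‖p.2 - Q₁ n p‖ ≤ 1 / ((n : ℝ) + 1) := ae_all_iff.2 hQ
  have key : ∀ {φ : ℕ → E d → ℝ} {ψ : E d → ℝ} {S : ℕ → E d → E d} {Q : ℕ → E d × E d → E d}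
      {q : E d × E d → E d} {T : E d → E d}, LipschitzWith (L + 1).toNNReal ψ →
      (∀ x, Tendsto (fun n => φ n x) atTop (𝓝 (ψ x))) → (∀ n, Measurable (S n)) →
      (∀ n x, ‖S n x‖ ≤ L + 1) → (∀ n x x', φ n x + ⟪x' - x, S n x⟫ ≤ φ n x') →
      (∀ n, Measurable (Q n)) → Measurable q → (∀ n, ρ.map (S n) = π.map (Q n)) →
      (∀ᵐ p ∂π, ∀ n, ‖q p - Q n p‖ ≤ 1 / ((a n : ℝ) + 1)) → IsOptimalMap ρ (π.map q) T →
      ∀ᵐ x ∂ρ, Tendsto (fun n => S n x) atTop (𝓝 (T x)) := by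
    intro φ ψ S Q q T hψ hc hS hb hs hQ hq he hQq hT
    have hd : ∀ᵐ x ∂ρ, DifferentiableAt ℝ ψ x := uniform_ae_of_ae hψ.ae_differentiableAt
    have h1 : ∀ᵐ x ∂ρ, Tendsto (fun n => S n x) atTop (𝓝 (gradient ψ x)) :=
      hd.mono fun x hx => subgrad_tendsto hc (fun n => hb n x) (fun n => hs n x) hx
    have h2 : ρ.map (gradient ψ) = π.map q := by
      refine map_eq_of_tendsto hS hQ (measurable_gradient ψ) hq h1 ?_ he
      filter_upwards [hQq] with p hp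
      rw [tendsto_iff_norm_sub_tendsto_zero]
      refine squeeze_zero (fun n => norm_nonneg _) (fun n => ?_) hηl
      rw [norm_sub_rev]; exact hp n
    have h3 : T =ᵐ[ρ] gradient ψ := by
      refine subgrad_unique hK (hKi.mono interior_subset) (uniform_ae_interior hK hKc)
        hψ.continuous hd (measurable_gradient ψ) (L := L + 1) ?_ ?_ hT.1 (hT.2.1.trans h2.symm)
        (hT.2.2 _ (measurable_gradient ψ) h2)
      · filter_upwards [h1] with x hx
        exact le_of_tendsto' hx.norm fun n => hb n x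
      · filter_upwards [h1] with x hx
        exact subgrad_limit hc (fun n => hs n x) hx
    filter_upwards [h1, h3] with x hx hx'
    rw [hx']; exact hx
  have k₀ := key hψ₀ c₀ (fun n => m₀ (a n)) (fun n => b₀ (a n)) (fun n => s₀ (a n))
    (fun n => mQ₀ (a n)) measurable_fst (fun n => e₀ (a n))
    (hQ'.mono fun p hp n => (hp (a n)).1) h₀
  have k₁ := key hψ₁ c₁ (fun n => m₁ (a n)) (fun n => b₁ (a n)) (fun n => s₁ (a n))
    (fun n => mQ₁ (a n)) measurable_snd (fun n => e₁ (a n))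
    (hQ'.mono fun p hp n => (hp (a n)).2) h₁
  have hfat : ∫⁻ x, ‖T₀ x - T₁ x‖ₑ ^ 2 ∂ρ ≤
      liminf (fun n => ∫⁻ x, ‖S₀ (a n) x - S₁ (a n) x‖ₑ ^ 2 ∂ρ) atTop := by
    refine le_trans (le_of_eq (lintegral_congr_ae ?_)) (lintegral_liminf_le fun n =>
      ((m₀ (a n)).fun_sub (m₁ (a n))).enorm.pow_const 2)
    filter_upwards [k₀, k₁] with x h0 h1
    exact (ENNReal.Tendsto.pow (h0.sub h1).enorm).liminf_eq.symm
  refine hfat.trans ?_
  have hlim : Tendsto (fun n : ℕ => (volume K)⁻¹ *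
        ENNReal.ofReal (d * (8 * N ^ 2 * (163920 * R ^ 2 * ((volume K).toReal *
          (2 * (∫ p, ‖p.1 - p.2‖ ^ 2 ∂π) + 8 * (1 / ((a n : ℝ) + 1)) ^ 2))) +
          36 * (L + 1) ^ 2 * (volume (Metric.closedBall (0 : E d) (R + 1))).toReal / N))) atTop
      (𝓝 ((volume K)⁻¹ *
        ENNReal.ofReal (d * (8 * N ^ 2 * (163920 * R ^ 2 * ((volume K).toReal *
          (2 * (∫ p, ‖p.1 - p.2‖ ^ 2 ∂π) + 8 * 0 ^ 2))) +
          36 * (L + 1) ^ 2 * (volume (Metric.closedBall (0 : E d) (R + 1))).toReal / N)))) := by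
    refine ENNReal.Tendsto.const_mul (ENNReal.tendsto_ofReal ?_)
      (Or.inr (ENNReal.inv_ne_top.2 (volume_pos_of_interior hKi)))
    exact (((((((hηl.pow 2).const_mul 8).const_add _).const_mul _).const_mul _).const_mul
      _).add_const _).const_mul _
  rw [zero_pow two_ne_zero, mul_zero, add_zero] at hlim
  rw [← hlim.liminf_eq]
  refine liminf_le_liminf (Eventually.of_forall fun n => ?_)
  rw [hρ, uniformProbOn, lintegral_smul_measure, smul_eq_mul]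
  gcongr
  exact hest (a n) N hN

theorem optimize {I : ℝ≥0∞} {A B M c : ℝ} (hA : 0 ≤ A) (hB : 0 ≤ B) (hM : 0 ≤ M) (hc : 0 ≤ c)
    (h : ∀ N : ℕ, 0 < N → I ≤ ENNReal.ofReal (A * N ^ 2 * c + B / N))
    (hcM : c ≤ M ^ 3) :
    I ≤ ENNReal.ofReal ((A * (1 + M) ^ 2 + B) * c ^ (1 / 3 : ℝ)) := by
  rcases hc.eq_or_lt with rfl | hc0
  · have hl : Tendsto (fun N : ℕ => ENNReal.ofReal (B / N)) atTop (𝓝 (ENNReal.ofReal 0)) :=
      ENNReal.tendsto_ofReal (tendsto_const_div_atTop_nhds_zero_nat B)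
    have : I ≤ ENNReal.ofReal 0 := ge_of_tendsto hl (eventually_atTop.2 ⟨1, fun N hN => by
      simpa using h N hN⟩)
    exact this.trans (ENNReal.ofReal_le_ofReal (by positivity))
  set r := c ^ (1 / 3 : ℝ) with hr
  have hr0 : 0 < r := Real.rpow_pos_of_pos hc0 _
  have hr3 : r ^ 3 = c := by
    rw [hr, ← Real.rpow_natCast, ← Real.rpow_mul hc]; norm_num
  have hrM : r ≤ M := by
    rw [← hr3] at hcM
    exact le_of_pow_le_pow_left₀ (by norm_num) hM hcM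
  have h1 : 1 / r ≤ ⌈1 / r⌉₊ := Nat.le_ceil _
  have h2 : (⌈1 / r⌉₊ : ℝ) < 1 / r + 1 := Nat.ceil_lt_add_one (by positivity)
  have hN : 0 < ⌈1 / r⌉₊ := Nat.ceil_pos.2 (by positivity)
  refine (h _ hN).trans (ENNReal.ofReal_le_ofReal ?_)
  set N : ℝ := (⌈1 / r⌉₊ : ℝ)
  have hN0 : 0 < N := lt_of_lt_of_le (by positivity) h1
  have h3 : N * r ≤ 1 + M := by
    have : N * r ≤ (1 / r + 1) * r := by gcongr
    rw [add_mul, one_div_mul_cancel hr0.ne'] at this
    linarith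
  have h4 : B / N ≤ B * r := by
    rw [div_eq_mul_one_div]
    gcongr
    rw [div_le_iff₀ hN0]
    rw [div_le_iff₀ hr0] at h1
    linarith
  have h5 : A * N ^ 2 * c ≤ A * (1 + M) ^ 2 * r := by
    rw [← hr3]
    calc A * N ^ 2 * r ^ 3 = A * (N * r) ^ 2 * r := by ring
      _ ≤ _ := by gcongr
  linarith

end Crest.Agent.OT
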